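import Vale.Agent.P263.TJ.SmallSq
import Mathlib.Topology.Compactification.OnePoint.Basic

/-!
# P263, block KJ (CL1): the product lemma for a sheet

`U` a simplicial set of families (`TSet`), `Y : U → (E × P)⁺` a family of sheets with support `O`,
`Y = (y', lam)` on `O`, `y' : U → E⁺` (infinite exactly outside `O`), `ell : U → P` defined everywhere,
and a homotopy from `ell` to `lam` over `O`.  If `b` is a cocycle of `(E × P)⁺` with
`b = pr_P^* x ∪ pr_E^* u` on the simplices in `E × P` and `b = 0` on the simplices which miss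
`e₀ × P`, then `Y^* b = ell^* x ∪ y'^* u + d η` and `η = 0` on the simplices with `y' ≠ e₀`:
`LSh.prod_lemma`.
-/

open Finset Topology OnePoint

namespace Vale.Agent.P263.KJ

open Vale.Agent.P263.S Vale.Agent.P263.E Vale.Agent.P263.H83 Vale.Agent.P263.TJ
open Vale.Agent.P263.G2

/-! ### sub simplicial sets as simplicial sets -/

section Sub

variable {X : SS} (A : Sb X)

/-- a sub simplicial set as a simplicial set -/
def Sb.toSS : SS where
  obj p := {x : X.obj p // A.mem x}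
  map f x := ⟨X.map f x.1, A.map_mem f x.2⟩
  map_id x := Subtype.ext (X.map_id x.1)
  map_comp f g x := Subtype.ext (X.map_comp f g x.1)

/-- the inclusion -/
def Sb.inc : SS.Map (Sb.toSS A) X := ⟨fun x => x.1, fun _ _ => rfl⟩

open Classical in
/-- extension by zero -/
noncomputable def Sb.ext0 (β : Cc (Sb.toSS A)) : Cc X := fun p x =>
  if h : A.mem x then β p ⟨x, h⟩ else 0

variable {A}

theorem Sb.ext0_of (β : Cc (Sb.toSS A)) {p : ℕ} (x : X.obj p) (h : A.mem x) :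
    Sb.ext0 A β p x = β p ⟨x, h⟩ := dif_pos h

theorem Sb.pull_ext0 (β : Cc (Sb.toSS A)) : Cc.pull (Sb.inc A) (Sb.ext0 A β) = β := by
  funext p x
  exact Sb.ext0_of β x.1 x.2

theorem Sb.vn_of_pull {u : Cc X} (h : Cc.pull (Sb.inc A) u = 0) : Vn A u := fun p x hx =>
  congrFun (congrFun h p) (show (Sb.toSS A).obj p from ⟨x, hx⟩)

theorem Sb.vn_ext0 {B : Sb X} {β : Cc (Sb.toSS A)} (h : Vn (B.comap (Sb.inc A)) β) :
    Vn B (Sb.ext0 A β) := by
  intro p x hx
  by_cases hA : A.mem x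
  · rw [Sb.ext0_of β x hA]
    exact h p _ hx
  · exact dif_neg hA

end Sub

/-- natural families of continuous maps -/
structure NatF (U : TSet) (X : Type) [TopologicalSpace X] where
  /-- the maps -/
  app : ∀ {p : ℕ}, U.obj p → C(Dl p, X)
  nat : ∀ {p q : ℕ} (f : C(Dl p, Dl q)) (x : U.obj q), app (U.pull f x) = (app x).comp f

/-- the map of simplicial sets -/
def NatF.toMap {U : TSet} {X : Type} [TopologicalSpace X] (F : NatF U X) :
    SS.Map U.ss (sing X) where
  app x := ofC (F.app x)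
  nat f x := F.nat (dmap f) x

theorem NatF.app_map {U : TSet} {X : Type} [TopologicalSpace X] (F : NatF U X) {p q : ℕ}
    (f : Op p q) (x : U.ss.obj q) (t : Dl p) :
    F.app (p := p) (U.ss.map f x) t = F.app (p := q) x (dmap f t) :=
  DFunLike.congr_fun (F.nat (dmap f) x) t

theorem NatF.toC_toMap {U : TSet} {X : Type} [TopologicalSpace X] (F : NatF U X) {p : ℕ}
    (x : U.ss.obj p) : toC (F.toMap.app x) = F.app x := rfl

/-- a family of sheets with values in `(E × P)⁺`, whose labels are homotopic to `ell` -/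
structure LSh (U : TSet) (E P : Type) [TopologicalSpace E] [TopologicalSpace P] where
  /-- the sheet -/
  Y : NatF U (OnePoint (E × P))
  /-- the component in `E` -/
  y : NatF U (OnePoint E)
  /-- the globally defined label -/
  ell : NatF U P
  /-- the homotopy of labels on the support -/
  h : ∀ {p : ℕ}, U.obj p → Dl p → unitInterval → P
  nat : ∀ {p q : ℕ} (f : C(Dl p, Dl q)) (x : U.obj q) (t : Dl p) (s : unitInterval),
    h (U.pull f x) t s = h x (f t) s
  cont : ∀ {p : ℕ} (x : U.obj p), (∀ t, Y.app x t ≠ ∞) →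
    Continuous fun z : Dl p × unitInterval => h x z.1 z.2
  h0 : ∀ {p : ℕ} (x : U.obj p) (t : Dl p), Y.app x t ≠ ∞ → h x t 0 = ell.app x t
  h1 : ∀ {p : ℕ} (x : U.obj p) (t : Dl p) (z : E × P), Y.app x t = (z : OnePoint (E × P)) →
    y.app x t = (z.1 : OnePoint E) ∧ h x t 1 = z.2
  hinf : ∀ {p : ℕ} (x : U.obj p) (t : Dl p), Y.app x t = ∞ → y.app x t = ∞

namespace LSh

variable {U : TSet} {E P : Type} [TopologicalSpace E] [TopologicalSpace P] (S : LSh U E P)

/-- the simplices in the support -/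
def V0 : Sb U.ss where
  mem {p} x := ∀ t, S.Y.app (p := p) x t ≠ ∞
  map_mem {p q} f x hx t := by
    rw [S.Y.app_map]
    exact hx _

/-- the simplices which miss `e₀ × P` -/
def V1 (e₀ : E) : Sb U.ss where
  mem {p} x := ∀ t, S.y.app (p := p) x t ≠ (e₀ : OnePoint E)
  map_mem {p q} f x hx t := by
    rw [S.y.app_map]
    exact hx _

theorem V1_Y {e₀ : E} {p : ℕ} {x : U.ss.obj p} (hx : (S.V1 e₀).mem x) (t : Dl p) (q : P) :
    S.Y.app (p := p) x t ≠ ((e₀, q) : E × P) := fun h => hx t (S.h1 x t _ h).1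

/-- the small simplices -/
def Sm (e₀ : E) (p : ℕ) : Set (U.obj p) :=
  {x | (∀ t, S.Y.app x t ≠ ∞) ∨ ∀ t, S.y.app x t ≠ (e₀ : OnePoint E)}

theorem loc [T1Space E] (e₀ : E) : U.Loc (S.Sm e₀) where
  pull {p q} f x hx := by
    rcases hx with hx | hx
    · left
      intro t
      rw [S.Y.nat]
      exact hx _
    · right
      intro t
      rw [S.y.nat]
      exact hx _
  nhd {n} x t := by
    by_cases h : S.Y.app x t = ∞
    · have h2 : S.y.app x t ≠ (e₀ : OnePoint E) := by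
        rw [S.hinf x t h]
        exact OnePoint.infty_ne_coe e₀
      refine ⟨{t' | S.y.app x t' ≠ (e₀ : OnePoint E)}, ?_, h2, ?_⟩
      · exact isOpen_ne.preimage (S.y.app x).continuous
      · intro k f hf
        right
        intro s
        rw [S.y.nat]
        exact hf s
    · refine ⟨{t' | S.Y.app x t' ≠ ∞}, ?_, h, ?_⟩
      · have h3 : {t' | S.Y.app x t' ≠ ∞} = (S.Y.app x) ⁻¹' (Set.range ((↑) : E × P → OnePoint (E × P))) := by
          ext t'
          exact OnePoint.ne_infty_iff_exists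
        rw [h3]
        exact OnePoint.isOpen_range_coe.preimage (S.Y.app x).continuous
      · intro k f hf
        left
        intro s
        rw [S.Y.nat]
        exact hf s

/-- over the support: the homotopy as a simplicial homotopy -/
noncomputable def hS : SS.Map (cylS (Sb.toSS S.V0)) (G2.sing P) where
  app {p} x := ofC ⟨fun t => S.h (p := p) x.1.1 t (chiI x.2 t),
    (S.cont (p := p) x.1.1 x.1.2).comp (continuous_id.prodMk (chiI x.2).continuous)⟩
  nat {p q} f x := by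
    refine ContinuousMap.ext fun t => ?_
    refine (S.nat (dmap f) x.1.1 t _).trans ?_
    exact congrArg (S.h (p := q) x.1.1 (dmap f t)) (DFunLike.congr_fun (chiI_comp x.2 f) t)

/-- over the support: the sheet as a pair -/
noncomputable def pairS : SS.Map (Sb.toSS S.V0) (G2.sing (E × P)) where
  app {p} x := ofC ⟨fun t => Classical.choose (OnePoint.ne_infty_iff_exists.1 (x.2 t)), by
    rw [OnePoint.isOpenEmbedding_coe.isInducing.continuous_iff]
    refine (S.Y.app (p := p) x.1).continuous.congr fun t => ?_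
    exact (Classical.choose_spec (OnePoint.ne_infty_iff_exists.1 (x.2 t))).symm⟩
  nat {p q} f x := by
    refine ContinuousMap.ext fun t => ?_
    apply OnePoint.coe_injective
    refine (Classical.choose_spec
      (OnePoint.ne_infty_iff_exists.1 (((Sb.toSS S.V0).map f x).2 t))).trans ?_
    refine (S.Y.app_map f x.1 t).trans ?_
    exact (Classical.choose_spec (OnePoint.ne_infty_iff_exists.1 (x.2 (dmap f t)))).symm

theorem coe_pairS {p : ℕ} (x : (Sb.toSS S.V0).obj p) (t : Dl p) :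
    ((toC (S.pairS.app x) t : E × P) : OnePoint (E × P)) = S.Y.app (p := p) x.1 t :=
  Classical.choose_spec (OnePoint.ne_infty_iff_exists.1 (x.2 t))

/-- the inclusion of `E × P` -/
def coeC (X : Type) [TopologicalSpace X] : C(X, OnePoint X) := ⟨_, OnePoint.continuous_coe⟩

theorem Y_inc : S.Y.toMap.comp (Sb.inc S.V0) = (singMap (coeC (E × P))).comp S.pairS :=
  SS.Map.ext fun {_} x => ContinuousMap.ext fun t => (S.coe_pairS x t).symm

theorem y_inc : S.y.toMap.comp (Sb.inc S.V0) =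
    (singMap ((coeC E).comp ContinuousMap.fst)).comp S.pairS :=
  SS.Map.ext fun {_} x => ContinuousMap.ext fun t => (S.h1 x.1 t _ (S.coe_pairS x t).symm).1

theorem ell_inc : S.ell.toMap.comp (Sb.inc S.V0) = S.hS.comp (end0 _) :=
  SS.Map.ext fun {p} x => ContinuousMap.ext fun t => by
    refine (S.h0 (p := p) x.1 t (x.2 t)).symm.trans ?_
    exact congrArg (S.h (p := p) x.1 t) (chiI_c0 t).symm

theorem lam_inc : (singMap (ContinuousMap.snd : C(E × P, P))).comp S.pairS = S.hS.comp (end1 _) :=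
  SS.Map.ext fun {p} x => ContinuousMap.ext fun t => by
    refine (S.h1 (p := p) x.1 t _ (S.coe_pairS x t).symm).2.symm.trans ?_
    exact congrArg (S.h (p := p) x.1 t) (chiI_c1 t).symm

/-- **(CL1), the product lemma** -/
theorem prod_lemma [T1Space E] (e₀ : E) {b : Cc (G2.sing (OnePoint (E × P)))}
    {u : Cc (G2.sing (OnePoint E))} {x : Cc (G2.sing P)} (db : Cc.d b = 0) (du : Cc.d u = 0)
    (dx : Cc.d x = 0)
    (hu : ∀ {p : ℕ} (σ : (G2.sing (OnePoint E)).obj p), (∀ t, toC σ t ≠ (e₀ : OnePoint E)) →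
      u p σ = 0)
    (hb : ∀ {p : ℕ} (σ : (G2.sing (OnePoint (E × P))).obj p),
      (∀ t (q : P), toC σ t ≠ ((e₀, q) : E × P)) → b p σ = 0)
    (hbu : Cc.pull (singMap (coeC (E × P))) b =
      Cc.cup 1 (Cc.pull (singMap (ContinuousMap.snd : C(E × P, P))) x)
        (Cc.pull (singMap ((coeC E).comp ContinuousMap.fst)) u)) :
    ∃ η : Cc U.ss, Vn (S.V1 e₀) η ∧
      Cc.pull S.Y.toMap b =
        Cc.cup 1 (Cc.pull S.ell.toMap x) (Cc.pull S.y.toMap u) + Cc.d η := by
  obtain ⟨κ, hκ⟩ : ∃ κ, κ = Cc.sOp (Cc.pull S.hS x) := ⟨_, rfl⟩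
  have h1 : Cc.d κ = Cc.pull (Sb.inc S.V0) (Cc.pull S.ell.toMap x) +
      Cc.pull S.pairS (Cc.pull (singMap (ContinuousMap.snd : C(E × P, P))) x) := by
    have h := Cc.sOp_d (Cc.pull S.hS x)
    rw [← pull_d, dx, ← hκ] at h
    have h0 : Cc.sOp (Cc.pull S.hS (0 : Cc (G2.sing P))) = 0 := ((Cc.cyl _).s).map_zero
    rw [h0, add_zero] at h
    rw [h]
    change Cc.pull (S.hS.comp (end0 _)) x + Cc.pull (S.hS.comp (end1 _)) x =
      Cc.pull (S.ell.toMap.comp (Sb.inc S.V0)) x +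
        Cc.pull ((singMap (ContinuousMap.snd : C(E × P, P))).comp S.pairS) x
    rw [S.ell_inc, S.lam_inc]
  obtain ⟨y', hy'⟩ : ∃ y', y' = Cc.pull (Sb.inc S.V0) (Cc.pull S.y.toMap u) := ⟨_, rfl⟩
  have dy' : Cc.d y' = 0 := by
    rw [hy', ← pull_d, ← pull_d, du]
    rfl
  have hYy : Cc.pull (Sb.inc S.V0) (Cc.pull S.Y.toMap b) = Cc.cup 1
      (Cc.pull S.pairS (Cc.pull (singMap (ContinuousMap.snd : C(E × P, P))) x)) y' := by
    change Cc.pull (S.Y.toMap.comp (Sb.inc S.V0)) b = _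
    rw [S.Y_inc, hy']
    change Cc.pull S.pairS (Cc.pull (singMap (coeC (E × P))) b) =
      Cc.cup 1 _ (Cc.pull (S.y.toMap.comp (Sb.inc S.V0)) u)
    rw [hbu, pull_cup, S.y_inc]
    rfl
  obtain ⟨a, ha⟩ : ∃ a, a = Sb.ext0 S.V0 (Cc.cup 1 κ y') := ⟨_, rfl⟩
  have hyV : Vn (S.V1 e₀) (Cc.pull S.y.toMap u) := fun p σ hσ => hu _ hσ
  have haV : Vn (S.V1 e₀) a := by
    rw [ha]
    refine Sb.vn_ext0 (Vn.cup_right 1 _ ?_)
    rw [hy']
    exact hyV.pull _
  have hbV : Vn (S.V1 e₀) (Cc.pull S.Y.toMap b) := fun p σ hσ =>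
    hb _ fun t q => S.V1_Y hσ t q
  obtain ⟨R, hR⟩ : ∃ R, R = Cc.pull S.Y.toMap b +
      Cc.cup 1 (Cc.pull S.ell.toMap x) (Cc.pull S.y.toMap u) + Cc.d a := ⟨_, rfl⟩
  have dR : Cc.d R = 0 := by
    rw [hR, d_add, d_add, d_d, ← pull_d, db, d_cup_one, ← pull_d, ← pull_d, dx, du]
    simp only [pull_zero, cup_zero_left, cup_zero_right, add_zero]
  have hR1 : Vn (S.V1 e₀) R := by
    rw [hR]
    exact (hbV.add (Vn.cup_right 1 _ hyV)).add haV.d
  have hR0 : Vn S.V0 R := by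
    apply Sb.vn_of_pull
    rw [hR, pull_add, pull_add, hYy, pull_cup, ← hy', pull_d, ha, Sb.pull_ext0, d_cup_one, dy',
      cup_zero_right, add_zero, h1, cup_add_left]
    obtain ⟨A, hA⟩ : ∃ A, A = Cc.cup 1
      (Cc.pull S.pairS (Cc.pull (singMap (ContinuousMap.snd : C(E × P, P))) x)) y' := ⟨_, rfl⟩
    obtain ⟨B, hB⟩ : ∃ B, B = Cc.cup 1 (Cc.pull (Sb.inc S.V0) (Cc.pull S.ell.toMap x)) y' :=
      ⟨_, rfl⟩
    rw [← hA, ← hB]
    calc A + B + (B + A) = (A + A) + (B + B) := by abel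
      _ = 0 := by rw [cc_add_self, cc_add_self, add_zero]
  have hRs : ∀ p, ∀ σ ∈ S.Sm e₀ p, R p σ = 0 := by
    intro p σ hσ
    rcases hσ with hσ | hσ
    · exact hR0 p _ hσ
    · exact hR1 p _ hσ
  obtain ⟨v, hv, hv0⟩ := TSet.exists_small_cochain (S.loc e₀) R dR hRs
  refine ⟨a + v, haV.add fun p σ hσ => hv0 p σ (Or.inr hσ), ?_⟩
  rw [d_add, hv, hR]
  obtain ⟨A, hA⟩ : ∃ A, A = Cc.cup 1 (Cc.pull S.ell.toMap x) (Cc.pull S.y.toMap u) := ⟨_, rfl⟩
  obtain ⟨B, hB⟩ : ∃ B, B = Cc.d a := ⟨_, rfl⟩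
  rw [← hA, ← hB]
  obtain ⟨C, hC⟩ : ∃ C, C = Cc.pull S.Y.toMap b := ⟨_, rfl⟩
  rw [← hC]
  calc C = C + (A + A) + (B + B) := by rw [cc_add_self, cc_add_self, add_zero, add_zero]
    _ = A + (B + (C + A + B)) := by abel

/-- the product lemma in a fixed degree -/
theorem prod_lemma_deg [T1Space E] (e₀ : E) {b : Cc (G2.sing (OnePoint (E × P)))}
    {u : Cc (G2.sing (OnePoint E))} {x : Cc (G2.sing P)} (db : Cc.d b = 0) (du : Cc.d u = 0)
    (dx : Cc.d x = 0)
    (hu : ∀ {p : ℕ} (σ : (G2.sing (OnePoint E)).obj p), (∀ t, toC σ t ≠ (e₀ : OnePoint E)) →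
      u p σ = 0)
    (hb : ∀ {p : ℕ} (σ : (G2.sing (OnePoint (E × P))).obj p),
      (∀ t (q : P), toC σ t ≠ ((e₀, q) : E × P)) → b p σ = 0)
    (hbu : Cc.pull (singMap (coeC (E × P))) b =
      Cc.cup 1 (Cc.pull (singMap (ContinuousMap.snd : C(E × P, P))) x)
        (Cc.pull (singMap ((coeC E).comp ContinuousMap.fst)) u)) {q k n : ℕ}
    (hxd : Cc.IsDeg q x) (hud : Cc.IsDeg k u) (hbd : Cc.IsDeg (q + k) b) (hn : q + k = n + 1) :
    ∃ η : Cc U.ss, Vn (S.V1 e₀) η ∧ Cc.IsDeg n η ∧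
      Cc.pull S.Y.toMap b =
        Cc.cup 1 (Cc.pull S.ell.toMap x) (Cc.pull S.y.toMap u) + Cc.d η := by
  obtain ⟨η, h1, h2⟩ := S.prod_lemma e₀ db du dx hu hb hbu
  refine ⟨Cc.comp n η, Cc.vn_comp h1 n, Cc.isDeg_comp n η, ?_⟩
  have h3 : Cc.IsDeg (n + 1) (Cc.d η) := by
    have e : Cc.d η = Cc.pull S.Y.toMap b +
        Cc.cup 1 (Cc.pull S.ell.toMap x) (Cc.pull S.y.toMap u) := by
      rw [h2]
      obtain ⟨A, hA⟩ : ∃ A, A = Cc.cup 1 (Cc.pull S.ell.toMap x) (Cc.pull S.y.toMap u) :=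
        ⟨_, rfl⟩
      rw [← hA]
      calc Cc.d η = Cc.d η + (A + A) := by rw [cc_add_self, add_zero]
        _ = A + Cc.d η + A := by abel
    rw [e, ← hn]
    exact (hbd.pull _).add (Cc.IsDeg.cup (hxd.pull _) (hud.pull _) (by omega))
  rw [← Cc.comp_d, Cc.comp_eq h3, h2]

end LSh

end Vale.Agent.P263.KJ
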