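import Vale.Agent.P263.KJ.CL1
import Vale.Agent.P263.TJ.SN

/-!
# P263, block KJ (CL1), corollaries

* `exists_plus` : a cocycle of an open subset `E` of `E⁺` which vanishes on the simplices which miss
  the closed set `Z` extends (exactly) to a cocycle of `E⁺` which vanishes on the simplices which
  miss `Z`.
* `LSh.prod_sn` : on `X × (Δ¹)ⁿ` : `Y^* b = s_n (ell^* x ∪ δ) + d ε`.
-/

open Finset Topology OnePoint

namespace Vale.Agent.P263.KJ

open Vale.Agent.P263.S Vale.Agent.P263.E Vale.Agent.P263.H83 Vale.Agent.P263.TJ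
open Vale.Agent.P263.G2

section Plus

variable {E : Type} [TopologicalSpace E]

/-- the small simplices for the cover of `E⁺` by `E` and the complement of `Z` -/
def smPlus (Z : Set E) (p : ℕ) : Set ((TSet.sing (OnePoint E)).obj p) :=
  {σ | (∀ t, (show C(Dl p, OnePoint E) from σ) t ≠ ∞) ∨
    ∀ t, (show C(Dl p, OnePoint E) from σ) t ∉ ((↑) : E → OnePoint E) '' Z}

theorem loc_smPlus {Z : Set E} (hZ : IsClosed (((↑) : E → OnePoint E) '' Z)) :
    (TSet.sing (OnePoint E)).Loc (smPlus Z) where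
  pull {p q} f x hx := by
    rcases hx with hx | hx
    · exact Or.inl fun t => hx _
    · exact Or.inr fun t => hx _
  nhd {n} x t := by
    by_cases h : (show C(Dl n, OnePoint E) from x) t = ∞
    · refine ⟨(show C(Dl n, OnePoint E) from x) ⁻¹' (((↑) : E → OnePoint E) '' Z)ᶜ,
        hZ.isOpen_compl.preimage (show C(Dl n, OnePoint E) from x).continuous, ?_, ?_⟩
      · rintro ⟨z, -, hz⟩
        rw [h] at hz
        exact OnePoint.coe_ne_infty z hz
      · intro k f hf
        right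
        intro s hs
        exact hf s hs
    · refine ⟨(show C(Dl n, OnePoint E) from x) ⁻¹' (Set.range ((↑) : E → OnePoint E)),
        OnePoint.isOpen_range_coe.preimage (show C(Dl n, OnePoint E) from x).continuous,
        OnePoint.ne_infty_iff_exists.1 h, ?_⟩
      intro k f hf
      left
      intro s
      exact OnePoint.ne_infty_iff_exists.2 (hf s)

/-- the simplices which do not meet infinity -/
def finS (E : Type) [TopologicalSpace E] : Sb (G2.sing (OnePoint E)) where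
  mem {p} σ := ∀ t, toC (p := p) σ t ≠ ∞
  map_mem _ _ h _ := h _

/-- the simplices which miss `Z` -/
def missZ (Z : Set E) : Sb (G2.sing (OnePoint E)) where
  mem {p} σ := ∀ t, toC (p := p) σ t ∉ ((↑) : E → OnePoint E) '' Z
  map_mem _ _ h _ := h _

/-- a simplex which does not meet infinity -/
noncomputable def liftF {p : ℕ} (σ : C(Dl p, OnePoint E)) (h : ∀ t, σ t ≠ ∞) : C(Dl p, E) :=
  ⟨fun t => Classical.choose (OnePoint.ne_infty_iff_exists.1 (h t)), by
    rw [OnePoint.isOpenEmbedding_coe.isInducing.continuous_iff]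
    exact σ.continuous.congr fun t =>
      (Classical.choose_spec (OnePoint.ne_infty_iff_exists.1 (h t))).symm⟩

theorem coe_liftF {p : ℕ} (σ : C(Dl p, OnePoint E)) (h : ∀ t, σ t ≠ ∞) (t : Dl p) :
    ((liftF σ h t : E) : OnePoint E) = σ t :=
  Classical.choose_spec (OnePoint.ne_infty_iff_exists.1 (h t))

open Classical in
/-- the extension by zero -/
noncomputable def extF (u : Cc (G2.sing E)) : Cc (G2.sing (OnePoint E)) := fun p σ =>
  if h : ∀ t, toC (p := p) σ t ≠ ∞ then u p (ofC (liftF (toC σ) h)) else 0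

theorem extF_coe (u : Cc (G2.sing E)) : Cc.pull (singMap (LSh.coeC E)) (extF u) = u := by
  funext p σ
  have h : ∀ t, toC (p := p) ((singMap (LSh.coeC E)).app σ) t ≠ ∞ := fun t =>
    OnePoint.coe_ne_infty _
  refine (dif_pos h).trans ?_
  congr 1
  refine ContinuousMap.ext fun t => OnePoint.coe_injective ?_
  exact coe_liftF _ h t

theorem exists_plus {Z : Set E} (hZ : IsClosed (((↑) : E → OnePoint E) '' Z))
    {u : Cc (G2.sing E)} (du : Cc.d u = 0)
    (hu : ∀ {p : ℕ} (σ : (G2.sing E).obj p), (∀ t, toC σ t ∉ Z) → u p σ = 0) :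
    ∃ v : Cc (G2.sing (OnePoint E)), Cc.d v = 0 ∧
      Cc.pull (singMap (LSh.coeC E)) v = u ∧ Vn (missZ Z) v := by
  have h1 : Vn (missZ Z) (extF u) := by
    intro p σ hσ
    by_cases h : ∀ t, toC (p := p) σ t ≠ ∞
    · refine (dif_pos h).trans (hu _ fun t ht => hσ t ⟨_, ht, ?_⟩)
      exact coe_liftF _ h t
    · exact dif_neg h
  have h2 : Vn (finS E) (Cc.d (extF u)) := by
    intro p σ hσ
    have h3 : Cc.pull (singMap (LSh.coeC E)) (Cc.d (extF u)) = 0 := by
      rw [pull_d, extF_coe, du]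
    have h4 : (singMap (LSh.coeC E)).app (ofC (liftF (toC σ) hσ)) = σ :=
      ContinuousMap.ext fun t => coe_liftF _ hσ t
    have h5 := congrFun (congrFun h3 p) (ofC (liftF (toC σ) hσ))
    rw [pull_apply, h4] at h5
    exact h5
  obtain ⟨w, hw, hw0⟩ : ∃ w : Cc (G2.sing (OnePoint E)), Cc.d w = Cc.d (extF u) ∧
      ∀ p, ∀ σ ∈ smPlus Z p, w p σ = 0 :=
    TSet.exists_small_cochain (loc_smPlus hZ) (Cc.d (extF u)) (d_d _)
    (fun p σ hσ => by
      rcases hσ with hσ | hσ
      · exact h2 p σ hσ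
      · exact h1.d p σ hσ)
  refine ⟨extF u + w, ?_, ?_, h1.add fun p σ hσ => hw0 p σ (Or.inr hσ)⟩
  · rw [d_add]
    rw [hw]
    exact cc_add_self _
  · rw [pull_add, extF_coe]
    have : Cc.pull (singMap (LSh.coeC E)) w = 0 := by
      funext p σ
      exact hw0 p _ (Or.inl fun t => OnePoint.coe_ne_infty _)
    rw [this, add_zero]

end Plus

namespace LSh

variable {U : TSet} {E P : Type} [TopologicalSpace E] [TopologicalSpace P] (S : LSh U E P)

/-- **(CL1) on `X × (Δ¹)ⁿ`** -/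
theorem prod_sn [T1Space E] (e₀ : E) {b : Cc (G2.sing (OnePoint (E × P)))}
    {u : Cc (G2.sing (OnePoint E))} {x : Cc (G2.sing P)} (db : Cc.d b = 0) (du : Cc.d u = 0)
    (dx : Cc.d x = 0)
    (hu : ∀ {p : ℕ} (σ : (G2.sing (OnePoint E)).obj p), (∀ t, toC σ t ≠ (e₀ : OnePoint E)) →
      u p σ = 0)
    (hb : ∀ {p : ℕ} (σ : (G2.sing (OnePoint (E × P))).obj p),
      (∀ t (q : P), toC σ t ≠ ((e₀, q) : E × P)) → b p σ = 0)
    (hbu : Cc.pull (singMap (coeC (E × P))) b =
      Cc.cup 1 (Cc.pull (singMap (ContinuousMap.snd : C(E × P, P))) x)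
        (Cc.pull (singMap ((coeC E).comp ContinuousMap.fst)) u))
    {X : SS} {n : ℕ} (m : SS.Map (X.prod (SN n)) U.ss)
    (hm : ∀ {p : ℕ} (z : (X.prod (SN n)).obj p),
      ((SN.base n).comap (SS.snd X (SN n))).mem z → (S.V1 e₀).mem (m.app z))
    (l : SS.Map X (G2.sing P)) (hl : S.ell.toMap.comp m = l.comp (SS.fst X (SN n)))
    {δ : Cc X} {ε : Cc (X.prod (SN n))} (hε : Vn ((SN.base n).comap (SS.snd X (SN n))) ε)
    (hy : Cc.pull (S.y.toMap.comp m) u = TJ.sn n δ + Cc.d ε) :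
    ∃ ε' : Cc (X.prod (SN n)), Vn ((SN.base n).comap (SS.snd X (SN n))) ε' ∧
      Cc.pull (S.Y.toMap.comp m) b = TJ.sn n (Cc.cup 1 (Cc.pull l x) δ) + Cc.d ε' := by
  obtain ⟨η, h1, h2⟩ := S.prod_lemma e₀ db du dx hu hb hbu
  refine ⟨Cc.cup 1 (Cc.pull (SS.fst X (SN n)) (Cc.pull l x)) ε + Cc.pull m η,
    (Vn.cup_right 1 _ hε).add ((h1.pull m).mono fun z hz => hm z hz), ?_⟩
  have h3 : Cc.pull (S.Y.toMap.comp m) b = Cc.pull m (Cc.pull S.Y.toMap b) := rfl
  have h4 : Cc.pull m (Cc.pull S.ell.toMap x) = Cc.pull (SS.fst X (SN n)) (Cc.pull l x) := by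
    change Cc.pull (S.ell.toMap.comp m) x = Cc.pull (l.comp (SS.fst X (SN n))) x
    rw [hl]
  have h5 : Cc.pull m (Cc.pull S.y.toMap u) = TJ.sn n δ + Cc.d ε := hy
  have h6 : Cc.d (Cc.pull (SS.fst X (SN n)) (Cc.pull l x)) = 0 := by
    rw [← pull_d, ← pull_d, dx, pull_zero, pull_zero]
  rw [h3, h2, pull_add, pull_cup, h4, h5, cup_add_right, cup_one_sn, pull_d, d_add, d_cup_one, h6,
    cup_zero_left, zero_add, add_assoc]

end LSh

end Vale.Agent.P263.KJ
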