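import Vale.Agent.P263.TJ.SCup
import Vale.Agent.P263.TJ.Gamma

/-!
# P263, block KJ (CL3): strict double covers of simplicial sets and their cocycles

* `DCov E B` : a strict double cover `pr : E → B` with flip `fl`.
* `DCov.Cl w s` : `w` is a cocycle of degree `1` of `B`, `s` is a cochain of degree `0` of `E`,
  `fl^* s = s + 1` and `pr^* w = d s`.
* `DCov.exists_cl` : existence;  `DCov.cl_of_sec` : for every choice of vertices over the vertices.
* `DCov.Cl.nat` : for a map `a : B → B'` covered by a flip-equivariant map `a' : E → E'`,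
  `a^* w' = w + d χ`, where `pr^* χ = a'^* s' + s`  (strictly).
* `Cc.pw u n` : the cup power;  `Cc.pw_coh` : the powers of cohomologous cocycles.
-/

open Finset

namespace Vale.Agent.P263.KJ

open Vale.Agent.P263.S Vale.Agent.P263.E Vale.Agent.P263.H83 Vale.Agent.P263.TJ

/-- strict double covers -/
structure DCov (E B : SS) where
  /-- the projection -/
  pr : SS.Map E B
  /-- the flip -/
  fl : SS.Map E E
  surj : ∀ {p : ℕ} (b : B.obj p), ∃ e, pr.app e = b
  pr_fl : ∀ {p : ℕ} (e : E.obj p), pr.app (fl.app e) = pr.app e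
  eq_or : ∀ {p : ℕ} {e e' : E.obj p}, pr.app e' = pr.app e → e' = e ∨ e' = fl.app e
  fl_ne : ∀ e : E.obj 0, fl.app e ≠ e

namespace DCov

variable {E B : SS} (D : DCov E B)

theorem fl_fl0 (e : E.obj 0) : D.fl.app (D.fl.app e) = e := by
  have h : D.pr.app (D.fl.app (D.fl.app e)) = D.pr.app e := by rw [D.pr_fl, D.pr_fl]
  rcases D.eq_or h with h1 | h1
  · exact h1
  · exact absurd h1 (D.fl_ne (D.fl.app e))

/-- cochains of the base which agree upstairs -/
theorem pull_inj {u v : Cc B} (h : Cc.pull D.pr u = Cc.pull D.pr v) : u = v := by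
  funext p b
  obtain ⟨e, rfl⟩ := D.surj b
  exact congrFun (congrFun h p) e

/-- the descended cochain -/
noncomputable def desc (u : Cc E) : Cc B := fun _ b => u _ (D.surj b).choose

theorem pull_desc {u : Cc E} (h : Cc.pull D.fl u = u) : Cc.pull D.pr (D.desc u) = u := by
  funext p e
  show u p (D.surj (D.pr.app e)).choose = u p e
  rcases D.eq_or (D.surj (D.pr.app e)).choose_spec with h1 | h1
  · rw [h1]
  · rw [h1]
    exact congrFun (congrFun h p) e

theorem exists_desc {u : Cc E} (h : Cc.pull D.fl u = u) : ∃ v : Cc B, Cc.pull D.pr v = u :=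
  ⟨_, D.pull_desc h⟩

theorem isDeg_of_pull {n : ℕ} {u : Cc B} (h : Cc.IsDeg n (Cc.pull D.pr u)) : Cc.IsDeg n u := by
  intro p hp b
  obtain ⟨e, rfl⟩ := D.surj b
  exact h p hp e

theorem d_of_pull {u : Cc B} (h : Cc.d (Cc.pull D.pr u) = 0) : Cc.d u = 0 := by
  apply D.pull_inj
  rw [pull_d, h]
  rfl

/-- a cocycle of the double cover, with the section which defines it -/
structure Cl (w : Cc B) (s : Cc E) : Prop where
  deg_w : Cc.IsDeg 1 w
  d_w : Cc.d w = 0
  deg_s : Cc.IsDeg 0 s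
  fl_s : Cc.pull D.fl s = s + Cc.one E
  pull_w : Cc.pull D.pr w = Cc.d s

theorem cl_of (s : Cc E) (h0 : Cc.IsDeg 0 s) (h1 : Cc.pull D.fl s = s + Cc.one E) :
    ∃ w : Cc B, D.Cl w s := by
  have h2 : Cc.pull D.fl (Cc.d s) = Cc.d s := by
    rw [pull_d, h1, d_add, d_one, add_zero]
  obtain ⟨w, hw⟩ := D.exists_desc h2
  refine ⟨w, D.isDeg_of_pull ?_, D.d_of_pull ?_, h0, h1, hw⟩
  · rw [hw]; exact h0.d
  · rw [hw, d_d]

open Classical in
/-- the sign of a choice of vertices -/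
noncomputable def sg (c : B.obj 0 → E.obj 0) : Cc E
  | 0, e => if e = c (D.pr.app e) then 0 else 1
  | _ + 1, _ => 0

theorem isDeg_sg (c : B.obj 0 → E.obj 0) : Cc.IsDeg 0 (D.sg c) := by
  intro p hp e
  cases p with
  | zero => exact absurd rfl hp
  | succ p => rfl

theorem fl_sg (c : B.obj 0 → E.obj 0) (hc : ∀ b, D.pr.app (c b) = b) :
    Cc.pull D.fl (D.sg c) = D.sg c + Cc.one E := by
  funext p e
  cases p with
  | succ p =>
    show (0 : ZMod 2) = 0 + (if p + 1 = 0 then 1 else 0)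
    rw [if_neg (Nat.succ_ne_zero p), add_zero]
  | zero =>
    classical
    show (if D.fl.app e = c (D.pr.app (D.fl.app e)) then (0 : ZMod 2) else 1) =
      (if e = c (D.pr.app e) then 0 else 1) + (if (0 : ℕ) = 0 then 1 else 0)
    rw [D.pr_fl, if_pos rfl]
    have h1 := hc (D.pr.app e)
    by_cases h : e = c (D.pr.app e)
    · rw [if_pos h, if_neg, zero_add]
      intro h2
      exact D.fl_ne e (h2.trans h.symm)
    · rw [if_neg h, if_pos]
      · rfl
      · rcases D.eq_or h1 with h2 | h2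
        · exact absurd h2.symm h
        · exact h2.symm

/-- the cocycle of a choice of vertices over the vertices -/
theorem cl_of_sec (c : B.obj 0 → E.obj 0) (hc : ∀ b, D.pr.app (c b) = b) :
    ∃ w : Cc B, D.Cl w (D.sg c) :=
  D.cl_of _ (D.isDeg_sg c) (D.fl_sg c hc)

theorem exists_cl : ∃ (w : Cc B) (s : Cc E), D.Cl w s := by
  choose c hc using fun b : B.obj 0 => D.surj b
  obtain ⟨w, hw⟩ := D.cl_of_sec c hc
  exact ⟨w, _, hw⟩

variable {E' B' : SS} {D} {D' : DCov E' B'} {w : Cc B} {s : Cc E} {w' : Cc B'} {s' : Cc E'}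

/-- pull-back of the cocycle along a map covered by an equivariant map -/
theorem Cl.pull (h' : D'.Cl w' s') (a : SS.Map B B') (a' : SS.Map E E')
    (h1 : D'.pr.comp a' = a.comp D.pr) (h2 : D'.fl.comp a' = a'.comp D.fl) :
    D.Cl (Cc.pull a w') (Cc.pull a' s') where
  deg_w := h'.deg_w.pull a
  d_w := by rw [← pull_d, h'.d_w]; rfl
  deg_s := h'.deg_s.pull a'
  fl_s := by
    have e1 : Cc.pull D.fl (Cc.pull a' s') = Cc.pull a' (Cc.pull D'.fl s') := by
      change Cc.pull (a'.comp D.fl) s' = Cc.pull (D'.fl.comp a') s'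
      rw [h2]
    rw [e1, h'.fl_s, pull_add, pull_one]
  pull_w := by
    have e1 : Cc.pull D.pr (Cc.pull a w') = Cc.pull a' (Cc.pull D'.pr w') := by
      change Cc.pull (a.comp D.pr) w' = Cc.pull (D'.pr.comp a') w'
      rw [h1]
    rw [e1, h'.pull_w, pull_d]

/-- two cocycles of the same double cover -/
theorem Cl.coh {w₁ : Cc B} {s₁ : Cc E} (h : D.Cl w s) (h₁ : D.Cl w₁ s₁) :
    ∃ χ : Cc B, Cc.IsDeg 0 χ ∧ w₁ = w + Cc.d χ ∧ Cc.pull D.pr χ = s₁ + s := by
  have h2 : Cc.pull D.fl (s₁ + s) = s₁ + s := by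
    rw [pull_add, h.fl_s, h₁.fl_s]
    have e := cc_add_self (Cc.one E)
    calc s₁ + Cc.one E + (s + Cc.one E) = s₁ + s + (Cc.one E + Cc.one E) := by abel
      _ = _ := by rw [e, add_zero]
  obtain ⟨χ, hχ⟩ := D.exists_desc h2
  refine ⟨χ, D.isDeg_of_pull ?_, D.pull_inj ?_, hχ⟩
  · rw [hχ]; exact h₁.deg_s.add h.deg_s
  · rw [pull_add, pull_d, hχ, h.pull_w, h₁.pull_w, d_add]
    have e := cc_add_self (Cc.d s)
    calc Cc.d s₁ = Cc.d s₁ + (Cc.d s + Cc.d s) := by rw [e, add_zero]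
      _ = _ := by abel

/-- **(CL3)** : naturality of the cocycle of a double cover -/
theorem Cl.nat (h : D.Cl w s) (h' : D'.Cl w' s') (a : SS.Map B B') (a' : SS.Map E E')
    (h1 : D'.pr.comp a' = a.comp D.pr) (h2 : D'.fl.comp a' = a'.comp D.fl) :
    ∃ χ : Cc B, Cc.IsDeg 0 χ ∧ Cc.pull a w' = w + Cc.d χ ∧
      Cc.pull D.pr χ = Cc.pull a' s' + s :=
  h.coh (h'.pull a a' h1 h2)

end DCov

/-! ### cup powers -/

/-- the cup power -/
def Cc.pw {X : SS} (u : Cc X) : ℕ → Cc X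
  | 0 => Cc.one X
  | n + 1 => Cc.cup 1 (Cc.pw u n) u

namespace Cc

variable {X Y : SS}

theorem pull_pw (f : SS.Map X Y) (u : Cc Y) (n : ℕ) : Cc.pull f (pw u n) = pw (Cc.pull f u) n := by
  induction n with
  | zero => rfl
  | succ n ih => rw [pw, pw, pull_cup, ih]

theorem d_pw {u : Cc X} (h : Cc.d u = 0) (n : ℕ) : Cc.d (pw u n) = 0 := by
  induction n with
  | zero => exact d_one
  | succ n ih => rw [pw, d_cup_one, ih, h, cup_zero_left, cup_zero_right, add_zero]

theorem isDeg_pw {m : ℕ} {u : Cc X} (h : Cc.IsDeg m u) (n : ℕ) : Cc.IsDeg (n * m) (pw u n) := by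
  induction n with
  | zero =>
    intro p hp x
    rw [Nat.zero_mul] at hp
    exact if_neg hp
  | succ n ih =>
    refine Cc.IsDeg.cup ih h ?_
    rw [Nat.succ_mul]

theorem isDeg_pw_one {u : Cc X} (h : Cc.IsDeg 1 u) (n : ℕ) : Cc.IsDeg n (pw u n) := by
  have := isDeg_pw h n
  rwa [Nat.mul_one] at this

/-- the powers of cohomologous cocycles are cohomologous -/
theorem pw_coh {u v χ : Cc X} (hv : Cc.d v = 0) (h : u = v + Cc.d χ) (n : ℕ) :
    ∃ β : Cc X, pw u n = pw v n + Cc.d β := by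
  induction n with
  | zero => exact ⟨0, by rw [d_zero, add_zero]; rfl⟩
  | succ n ih =>
    obtain ⟨β, hβ⟩ := ih
    have hu : Cc.d u = 0 := by rw [h, d_add, hv, d_d, add_zero]
    have hvn := d_pw hv n
    refine ⟨Cc.cup 1 (pw v n) χ + Cc.cup 1 β u, ?_⟩
    have e1 : Cc.d (Cc.cup 1 (pw v n) χ) = Cc.cup 1 (pw v n) (Cc.d χ) := by
      rw [d_cup_one, hvn, cup_zero_left, zero_add]
    have e2 : Cc.d (Cc.cup 1 β u) = Cc.cup 1 (Cc.d β) u := by
      rw [d_cup_one, hu, cup_zero_right, add_zero]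
    rw [d_add, e1, e2]
    change Cc.cup 1 (pw u n) u = Cc.cup 1 (pw v n) v + _
    rw [hβ, cup_add_left]
    nth_rewrite 1 [h]
    rw [cup_add_right]
    abel

theorem pw_coh_deg {u v χ : Cc X} (hu1 : Cc.IsDeg 1 u) (hv1 : Cc.IsDeg 1 v) (hv : Cc.d v = 0)
    (h : u = v + Cc.d χ) (n : ℕ) :
    ∃ β : Cc X, Cc.IsDeg n β ∧ pw u (n + 1) = pw v (n + 1) + Cc.d β := by
  obtain ⟨β, hβ⟩ := pw_coh hv h (n + 1)
  refine ⟨Cc.comp n β, Cc.isDeg_comp n β, ?_⟩
  have h1 : Cc.d β = pw u (n + 1) + pw v (n + 1) := by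
    rw [hβ]
    have e := cc_add_self (pw v (n + 1))
    calc Cc.d β = Cc.d β + (pw v (n + 1) + pw v (n + 1)) := by rw [e, add_zero]
      _ = _ := by abel
  have h2 : Cc.IsDeg (n + 1) (Cc.d β) := by
    rw [h1]
    exact (isDeg_pw_one hu1 _).add (isDeg_pw_one hv1 _)
  rw [← Cc.comp_d, Cc.comp_eq h2, hβ]

end Cc

end Vale.Agent.P263.KJ
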