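import Vale.Agent.P263.KJ.Rot
import Mathlib.Analysis.Calculus.FDeriv.Basic
import Mathlib.Analysis.Asymptotics.Lemmas

/-!
# P263, block KJ: the sheet of a pair of boxes has an invertible derivative at its zero

`E = V × W`, `W = V →L[ℝ] V`.  A sheet is `(s, k ten u u + N) ↦ ((a+b)/2, ten ((a-b)/2) u + h N)`,
`a = g (s+v)`, `b = g' (s-v)`, `v = (1/k - 1) u`, `‖u‖ = 1`, `N u = 0`.  At the point
`s₀ + v₀ = a₀`, `s₀ - v₀ = b₀`, `N = 0` it has the derivative `lamL`, which is invertible.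
-/

open Filter Topology Asymptotics
open scoped RealInnerProductSpace

namespace Vale.Agent.P263.KJ

namespace PairDer

variable {V : Type*} [NormedAddCommGroup V] [InnerProductSpace ℝ V]

theorem ten_add_right (w u u' : V) : ten w (u + u') = ten w u + ten w u' := by
  ext v; simp [ten_apply, inner_add_left, add_smul]

theorem ten_sub_right (w u u' : V) : ten w (u - u') = ten w u - ten w u' := by
  ext v; simp [ten_apply, inner_sub_left, sub_smul]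

theorem ten_smul_right (a : ℝ) (w u : V) : ten w (a • u) = a • ten w u := by
  ext v; simp [ten_apply, inner_smul_left, mul_smul]

/-- the derivative of `v` as a function of `B u₀` -/
noncomputable def Dv (k₀ : ℝ) (u₀ : V) (x : V) : V :=
  (-(k₀ ^ 2)⁻¹ * ⟪u₀, x⟫) • u₀ + ((1 - k₀) * (k₀ ^ 2)⁻¹) • (x - ⟪u₀, x⟫ • u₀)

theorem Dv_add (k₀ : ℝ) (u₀ x y : V) : Dv k₀ u₀ (x + y) = Dv k₀ u₀ x + Dv k₀ u₀ y := by
  simp only [Dv, inner_add_right]; module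

theorem Dv_smul (k₀ : ℝ) (u₀ : V) (c : ℝ) (x : V) : Dv k₀ u₀ (c • x) = c • Dv k₀ u₀ x := by
  simp only [Dv, inner_smul_right]; module

/-- the derivative of `N` as a function of `B` -/
noncomputable def Dn (u₀ : V) (B : V →L[ℝ] V) : V →L[ℝ] V :=
  B - ten (B u₀) u₀ - ten u₀ (B u₀ - ⟪u₀, B u₀⟫ • u₀)

theorem Dn_add (u₀ : V) (B B' : V →L[ℝ] V) : Dn u₀ (B + B') = Dn u₀ B + Dn u₀ B' := by
  ext v
  simp only [Dn, add_apply, inner_add_right, sub_apply, ten_apply, inner_sub_left, inner_add_left,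
    inner_smul_left]
  simp only [conj_trivial]
  module

theorem Dn_smul (u₀ : V) (c : ℝ) (B : V →L[ℝ] V) : Dn u₀ (c • B) = c • Dn u₀ B := by
  ext v
  simp only [Dn, smul_apply, inner_smul_right, sub_apply, ten_apply, inner_sub_left,
    inner_smul_left]
  simp only [conj_trivial]
  module

/-- the derivative of the sheet -/
noncomputable def lamL (k₀ : ℝ) (u₀ : V) (L L' : V ≃L[ℝ] V) (h₀ : ℝ) :
    (V × (V →L[ℝ] V)) →ₗ[ℝ] (V × (V →L[ℝ] V)) where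
  toFun z := ((2⁻¹ : ℝ) • (L (z.1 + Dv k₀ u₀ (z.2 u₀)) + L' (z.1 - Dv k₀ u₀ (z.2 u₀))),
    ten ((2⁻¹ : ℝ) • (L (z.1 + Dv k₀ u₀ (z.2 u₀)) - L' (z.1 - Dv k₀ u₀ (z.2 u₀)))) u₀ +
      h₀ • Dn u₀ z.2)
  map_add' z z' := by
    ext1
    · simp only [Prod.fst_add, Prod.snd_add, add_apply, Dv_add, map_add, map_sub]; module
    · simp only [Prod.fst_add, Prod.snd_add, add_apply, Dv_add, map_add, map_sub, Dn_add,
        ten_add, ten_sub, ten_smul]; module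
  map_smul' c z := by
    ext1
    · simp only [Prod.smul_fst, Prod.smul_snd, smul_apply, Dv_smul, map_add, map_sub,
        map_smul, RingHom.id_apply]; module
    · simp only [Prod.smul_fst, Prod.smul_snd, smul_apply, Dv_smul, map_add, map_sub,
        map_smul, RingHom.id_apply, Dn_smul, ten_add, ten_sub, ten_smul]; module

theorem inner_self_one {u₀ : V} (hu : ‖u₀‖ = 1) : ⟪u₀, u₀⟫ = 1 := by
  rw [real_inner_self_eq_norm_sq, hu]; norm_num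

theorem Dv_inj {k₀ : ℝ} {u₀ : V} (hk : k₀ ≠ 0) (hk1 : k₀ ≠ 1) (hu : ‖u₀‖ = 1) {x : V}
    (h : Dv k₀ u₀ x = 0) : x = 0 := by
  have h1 : ⟪u₀, Dv k₀ u₀ x⟫ = -(k₀ ^ 2)⁻¹ * ⟪u₀, x⟫ := by
    simp only [Dv, inner_add_right, inner_smul_right, inner_sub_right, inner_self_one hu]; ring
  rw [h, inner_zero_right] at h1
  have h2 : ⟪u₀, x⟫ = 0 := by
    have : -(k₀ ^ 2)⁻¹ ≠ 0 := neg_ne_zero.mpr (inv_ne_zero (pow_ne_zero 2 hk))
    exact (mul_eq_zero.mp h1.symm).resolve_left this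
  rw [Dv, h2, mul_zero, zero_smul, zero_add, sub_zero] at h
  exact (smul_eq_zero.mp h).resolve_left
    (mul_ne_zero (sub_ne_zero.mpr hk1.symm) (inv_ne_zero (pow_ne_zero 2 hk)))

theorem Dn_self {u₀ : V} (hu : ‖u₀‖ = 1) (B : V →L[ℝ] V) : Dn u₀ B u₀ = 0 := by
  simp only [Dn, sub_apply, ten_apply, inner_sub_left, inner_smul_left, inner_self_one hu,
    conj_trivial, real_inner_comm u₀ (B u₀)]
  simp

theorem lamL_inj {k₀ h₀ : ℝ} {u₀ : V} (hk : k₀ ≠ 0) (hk1 : k₀ ≠ 1) (hu : ‖u₀‖ = 1)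
    (hh : h₀ ≠ 0) (L L' : V ≃L[ℝ] V) : Function.Injective (lamL k₀ u₀ L L' h₀) := by
  rw [injective_iff_map_eq_zero]
  rintro ⟨σ, B⟩ h
  have h1 := congrArg Prod.fst h
  have h2 := congrArg Prod.snd h
  change (2⁻¹ : ℝ) • (L (σ + Dv k₀ u₀ (B u₀)) + L' (σ - Dv k₀ u₀ (B u₀))) = 0 at h1
  change ten ((2⁻¹ : ℝ) • (L (σ + Dv k₀ u₀ (B u₀)) - L' (σ - Dv k₀ u₀ (B u₀)))) u₀ +
      h₀ • Dn u₀ B = 0 at h2
  have h3 := congrArg (fun f : V →L[ℝ] V => f u₀) h2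
  simp only [add_apply, ten_self hu, smul_apply, Dn_self hu, smul_zero, add_zero,
    zero_apply] at h3
  have h4 : L (σ + Dv k₀ u₀ (B u₀)) = 0 := by
    have : L (σ + Dv k₀ u₀ (B u₀)) =
        (2⁻¹ : ℝ) • (L (σ + Dv k₀ u₀ (B u₀)) + L' (σ - Dv k₀ u₀ (B u₀))) +
        (2⁻¹ : ℝ) • (L (σ + Dv k₀ u₀ (B u₀)) - L' (σ - Dv k₀ u₀ (B u₀))) := by module
    rw [this, h1, h3, add_zero]
  have h5 : L' (σ - Dv k₀ u₀ (B u₀)) = 0 := by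
    have : L' (σ - Dv k₀ u₀ (B u₀)) =
        (2⁻¹ : ℝ) • (L (σ + Dv k₀ u₀ (B u₀)) + L' (σ - Dv k₀ u₀ (B u₀))) -
        (2⁻¹ : ℝ) • (L (σ + Dv k₀ u₀ (B u₀)) - L' (σ - Dv k₀ u₀ (B u₀))) := by module
    rw [this, h1, h3, sub_zero]
  have h6 : σ + Dv k₀ u₀ (B u₀) = 0 := (map_eq_zero_iff L L.injective).mp h4
  have h7 : σ - Dv k₀ u₀ (B u₀) = 0 := (map_eq_zero_iff L' L'.injective).mp h5
  have h8 : Dv k₀ u₀ (B u₀) = 0 := by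
    have : Dv k₀ u₀ (B u₀) = (2⁻¹ : ℝ) • ((σ + Dv k₀ u₀ (B u₀)) - (σ - Dv k₀ u₀ (B u₀))) := by
      module
    rw [this, h6, h7]; simp
  have h9 : σ = 0 := by rw [h8, add_zero] at h6; exact h6
  have h10 : B u₀ = 0 := Dv_inj hk hk1 hu h8
  have h11 : Dn u₀ B = B := by
    rw [Dn, h10, ten_zero, inner_zero_right, zero_smul, sub_zero, sub_zero]
    ext v; simp [ten_apply]
  rw [h3, ten_zero, zero_add, h11] at h2
  rw [h9, (smul_eq_zero.mp h2).resolve_left hh]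
  rfl

section so

variable {ι : Type*} {l : Filter ι} {η : ι → ℝ}
variable {F : Type*} [NormedAddCommGroup F]

theorem so_mul (hη : Tendsto η l (𝓝 0)) {f : ι → F} {a b : ι → ℝ}
    (h : ∀ i, ‖f i‖ ≤ a i * b i) (ha : a =O[l] η) (hb : b =O[l] η) : f =o[l] η := by
  have h1 : f =O[l] fun i => a i * b i := by
    refine IsBigO.of_bound 1 (Eventually.of_forall fun i => ?_)
    rw [one_mul]
    exact (h i).trans (le_abs_self _)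
  have h2 : (fun i => a i * b i) =O[l] fun i => η i * η i := ha.mul hb
  have h3 : (fun i => η i * η i) =o[l] fun i => (1 : ℝ) * η i :=
    ((isLittleO_one_iff ℝ).2 hη).mul_isBigO (isBigO_refl η l)
  simp only [one_mul] at h3
  exact (h1.trans h2).trans_isLittleO h3

theorem so_bdd {f : ι → F} {a b : ι → ℝ}
    (h : ∀ i, ‖f i‖ ≤ a i * b i) (ha : a =O[l] (fun _ => (1 : ℝ))) (hb : b =o[l] η) :
    f =o[l] η := by
  have h1 : f =O[l] fun i => a i * b i := by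
    refine IsBigO.of_bound 1 (Eventually.of_forall fun i => ?_)
    rw [one_mul]
    exact (h i).trans (le_abs_self _)
  have h2 : (fun i => a i * b i) =o[l] fun i => (1 : ℝ) * η i := ha.mul_isLittleO hb
  simp only [one_mul] at h2
  exact h1.trans_isLittleO h2

end so

theorem norm_Dv_le (k₀ : ℝ) {u₀ : V} (hu : ‖u₀‖ = 1) (x : V) :
    ‖Dv k₀ u₀ x‖ ≤ (|(k₀ ^ 2)⁻¹| + |(1 - k₀) * (k₀ ^ 2)⁻¹| * 2) * ‖x‖ := by
  have h1 : |⟪u₀, x⟫| ≤ ‖x‖ := by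
    have := abs_real_inner_le_norm u₀ x
    rwa [hu, one_mul] at this
  have h2 : ‖(-(k₀ ^ 2)⁻¹ * ⟪u₀, x⟫) • u₀‖ ≤ |(k₀ ^ 2)⁻¹| * ‖x‖ := by
    rw [norm_smul, hu, mul_one, norm_mul, norm_neg, Real.norm_eq_abs, Real.norm_eq_abs]
    exact mul_le_mul_of_nonneg_left h1 (abs_nonneg _)
  have h3 : ‖x - ⟪u₀, x⟫ • u₀‖ ≤ 2 * ‖x‖ := by
    refine (norm_sub_le _ _).trans ?_
    rw [norm_smul, hu, mul_one, Real.norm_eq_abs]
    linarith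
  have h4 : ‖((1 - k₀) * (k₀ ^ 2)⁻¹) • (x - ⟪u₀, x⟫ • u₀)‖ ≤
      |(1 - k₀) * (k₀ ^ 2)⁻¹| * (2 * ‖x‖) := by
    rw [norm_smul, Real.norm_eq_abs]
    exact mul_le_mul_of_nonneg_left h3 (abs_nonneg _)
  have h5 := norm_add_le ((-(k₀ ^ 2)⁻¹ * ⟪u₀, x⟫) • u₀)
    (((1 - k₀) * (k₀ ^ 2)⁻¹) • (x - ⟪u₀, x⟫ • u₀))
  unfold Dv
  linarith

theorem norm_Dn_le {u₀ : V} (hu : ‖u₀‖ = 1) (B : V →L[ℝ] V) : ‖Dn u₀ B‖ ≤ 4 * ‖B‖ := by
  have h0 : ‖B u₀‖ ≤ ‖B‖ := by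
    have := B.le_opNorm u₀
    rwa [hu, mul_one] at this
  have h1 : |⟪u₀, B u₀⟫| ≤ ‖B u₀‖ := by
    have := abs_real_inner_le_norm u₀ (B u₀)
    rwa [hu, one_mul] at this
  have h3 : ‖B u₀ - ⟪u₀, B u₀⟫ • u₀‖ ≤ 2 * ‖B‖ := by
    refine (norm_sub_le _ _).trans ?_
    rw [norm_smul, hu, mul_one, Real.norm_eq_abs]
    linarith
  have h4 := norm_sub_le (B - ten (B u₀) u₀) (ten u₀ (B u₀ - ⟪u₀, B u₀⟫ • u₀))
  have h5 := norm_sub_le B (ten (B u₀) u₀)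
  rw [norm_ten, hu, one_mul] at h5
  rw [norm_ten, hu, mul_one] at h4
  unfold Dn
  linarith

section main

variable {ι : Type*} {l : Filter ι} {s u : ι → V} {k : ι → ℝ} {N : ι → V →L[ℝ] V}

/-- the size of the parameters -/
noncomputable def eta (s₀ u₀ : V) (k₀ : ℝ) (s u : ι → V) (k : ι → ℝ) (N : ι → V →L[ℝ] V)
    (i : ι) : ℝ := ‖s i - s₀‖ + |k i - k₀| + ‖u i - u₀‖ + ‖N i‖

/-- `B = k ten u u + N - k₀ ten u₀ u₀` -/
noncomputable def BB (u₀ : V) (k₀ : ℝ) (u : ι → V) (k : ι → ℝ) (N : ι → V →L[ℝ] V)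
    (i : ι) : V →L[ℝ] V := k i • ten (u i) (u i) + N i - k₀ • ten u₀ u₀

variable {s₀ u₀ : V} {k₀ : ℝ}


theorem eta_tendsto (hs : Tendsto s l (𝓝 s₀)) (hk : Tendsto k l (𝓝 k₀)) (hu : Tendsto u l (𝓝 u₀))
    (hN : Tendsto N l (𝓝 0)) : Tendsto (eta s₀ u₀ k₀ s u k N) l (𝓝 0) := by
  have h1 : Tendsto (fun i => ‖s i - s₀‖) l (𝓝 0) := by
    have := (hs.sub_const s₀).norm; simpa using this
  have h2 : Tendsto (fun i => |k i - k₀|) l (𝓝 0) := by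
    have := (hk.sub_const k₀).abs; simpa using this
  have h3 : Tendsto (fun i => ‖u i - u₀‖) l (𝓝 0) := by
    have := (hu.sub_const u₀).norm; simpa using this
  have h4 : Tendsto (fun i => ‖N i‖) l (𝓝 0) := by
    have := hN.norm; simpa using this
  have := ((h1.add h2).add h3).add h4
  rw [add_zero, add_zero, add_zero] at this
  exact this

theorem eta_nonneg (i : ι) : 0 ≤ (eta s₀ u₀ k₀ s u k N) i := by unfold eta; positivity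

theorem O_s : (fun i => ‖s i - s₀‖) =O[l] (eta s₀ u₀ k₀ s u k N) := by
  refine IsBigO.of_bound 1 (Eventually.of_forall fun i => ?_)
  rw [one_mul, norm_norm, Real.norm_of_nonneg (eta_nonneg i)]
  unfold eta; linarith [abs_nonneg (k i - k₀), norm_nonneg (u i - u₀), norm_nonneg (N i)]

theorem O_k : (fun i => |k i - k₀|) =O[l] (eta s₀ u₀ k₀ s u k N) := by
  refine IsBigO.of_bound 1 (Eventually.of_forall fun i => ?_)
  rw [one_mul, Real.norm_eq_abs, abs_abs, Real.norm_of_nonneg (eta_nonneg i)]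
  unfold eta; linarith [norm_nonneg (s i - s₀), norm_nonneg (u i - u₀), norm_nonneg (N i)]

theorem O_u : (fun i => ‖u i - u₀‖) =O[l] (eta s₀ u₀ k₀ s u k N) := by
  refine IsBigO.of_bound 1 (Eventually.of_forall fun i => ?_)
  rw [one_mul, norm_norm, Real.norm_of_nonneg (eta_nonneg i)]
  unfold eta; linarith [abs_nonneg (k i - k₀), norm_nonneg (s i - s₀), norm_nonneg (N i)]

theorem O_N : (fun i => ‖N i‖) =O[l] (eta s₀ u₀ k₀ s u k N) := by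
  refine IsBigO.of_bound 1 (Eventually.of_forall fun i => ?_)
  rw [one_mul, norm_norm, Real.norm_of_nonneg (eta_nonneg i)]
  unfold eta; linarith [abs_nonneg (k i - k₀), norm_nonneg (s i - s₀), norm_nonneg (u i - u₀)]

theorem so_inner (hη : Tendsto (eta s₀ u₀ k₀ s u k N) l (𝓝 0)) (hu₀ : ‖u₀‖ = 1) (hu1 : ∀ i, ‖u i‖ = 1) :
    (fun i => ⟪u₀, u i - u₀⟫) =o[l] (eta s₀ u₀ k₀ s u k N) := by
  refine so_mul hη (a := fun i => ‖u i - u₀‖) (b := fun i => ‖u i - u₀‖) (fun i => ?_) O_u O_u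
  have h1 : ‖u i - u₀‖ ^ 2 = -2 * ⟪u₀, u i - u₀⟫ := by
    rw [norm_sub_sq_real, hu1 i, hu₀, inner_sub_right, inner_self_one hu₀,
      real_inner_comm u₀ (u i)]
    ring
  rw [Real.norm_eq_abs]
  have h2 : |⟪u₀, u i - u₀⟫| = ‖u i - u₀‖ ^ 2 / 2 := by
    rw [show ⟪u₀, u i - u₀⟫ = -(‖u i - u₀‖ ^ 2 / 2) by rw [h1]; ring, abs_neg,
      abs_of_nonneg (by positivity)]
  rw [h2]
  nlinarith [sq_nonneg ‖u i - u₀‖]

theorem so_Nu (hη : Tendsto (eta s₀ u₀ k₀ s u k N) l (𝓝 0)) (hN0 : ∀ i, N i (u i) = 0) :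
    (fun i => N i u₀) =o[l] (eta s₀ u₀ k₀ s u k N) := by
  refine so_mul hη (a := fun i => ‖N i‖) (b := fun i => ‖u i - u₀‖) (fun i => ?_) O_N O_u
  have h1 : N i u₀ = -(N i (u i - u₀)) := by rw [map_sub, hN0 i]; simp
  rw [h1, norm_neg]
  exact (N i).le_opNorm _

theorem bdd_of_tendsto {E : Type*} [NormedAddCommGroup E] {f : ι → E} {x : E}
    (h : Tendsto f l (𝓝 x)) : (fun i => ‖f i‖) =O[l] (fun _ => (1 : ℝ)) :=
  (h.isBigO_one ℝ).norm_left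

/-- `B u₀ = e₂ u₀ + k₀ e₃ + o(η)` -/
theorem so_Bu (hη : Tendsto (eta s₀ u₀ k₀ s u k N) l (𝓝 0)) (hk : Tendsto k l (𝓝 k₀)) (hu₀ : ‖u₀‖ = 1)
    (hu1 : ∀ i, ‖u i‖ = 1) (hN0 : ∀ i, N i (u i) = 0) :
    (fun i => (BB u₀ k₀ u k N) i u₀ - ((k i - k₀) • u₀ + k₀ • (u i - u₀))) =o[l] (eta s₀ u₀ k₀ s u k N) := by
  have e : (fun i => (BB u₀ k₀ u k N) i u₀ - ((k i - k₀) • u₀ + k₀ • (u i - u₀))) =
      fun i => (k i - k₀) • (u i - u₀) + (k i * ⟪u₀, u i - u₀⟫) • u i + N i u₀ := by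
    funext i
    have h1 : ⟪u i, u₀⟫ = 1 + ⟪u₀, u i - u₀⟫ := by
      rw [inner_sub_right, inner_self_one hu₀, real_inner_comm u₀ (u i)]; ring
    simp only [BB, add_apply, sub_apply, smul_apply, ten_apply, inner_self_one hu₀, h1]
    module
  rw [e]
  refine ((so_mul hη (a := fun i => |k i - k₀|) (b := fun i => ‖u i - u₀‖) (fun i => ?_)
    O_k O_u).add (so_bdd (a := fun i => ‖k i‖) (b := fun i => ‖⟪u₀, u i - u₀⟫‖) (fun i => ?_)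
    (bdd_of_tendsto hk) (so_inner hη hu₀ hu1).norm_left)).add (so_Nu hη hN0)
  · rw [norm_smul, Real.norm_eq_abs]
  · rw [norm_smul, hu1 i, mul_one, norm_mul]

/-- `v - v₀ = -k₀⁻² e₂ u₀ + (k₀⁻¹ - 1) e₃ + o(η)` -/
theorem so_v (hη : Tendsto (eta s₀ u₀ k₀ s u k N) l (𝓝 0)) (hk : Tendsto k l (𝓝 k₀)) (hk0 : 0 < k₀)
    (hkp : ∀ i, 0 < k i) (hu1 : ∀ i, ‖u i‖ = 1) :
    (fun i => (((k i)⁻¹ - 1) • u i - (k₀⁻¹ - 1) • u₀) -
      ((-(k₀ ^ 2)⁻¹ * (k i - k₀)) • u₀ + (k₀⁻¹ - 1) • (u i - u₀))) =o[l] (eta s₀ u₀ k₀ s u k N) := by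
  have e : (fun i => (((k i)⁻¹ - 1) • u i - (k₀⁻¹ - 1) • u₀) -
      ((-(k₀ ^ 2)⁻¹ * (k i - k₀)) • u₀ + (k₀⁻¹ - 1) • (u i - u₀))) =
      fun i => ((k i - k₀) * ((k i)⁻¹ * (k₀ ^ 2)⁻¹ * (k i - k₀))) • u i -
        (k₀ ^ 2)⁻¹ • ((k i - k₀) • (u i - u₀)) := by
    funext i
    have h1 : (k i)⁻¹ = k₀⁻¹ - (k₀ ^ 2)⁻¹ * (k i - k₀) +
        (k i - k₀) * ((k i)⁻¹ * (k₀ ^ 2)⁻¹ * (k i - k₀)) := by
      have := (hkp i).ne'
      field_simp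
      ring
    rw [show ((k i)⁻¹ - 1) • u i = (k₀⁻¹ - (k₀ ^ 2)⁻¹ * (k i - k₀) +
        (k i - k₀) * ((k i)⁻¹ * (k₀ ^ 2)⁻¹ * (k i - k₀)) - 1) • u i by rw [← h1]]
    module
  rw [e]
  have h2 : (fun i => |(k i)⁻¹ * (k₀ ^ 2)⁻¹ * (k i - k₀)|) =O[l] (eta s₀ u₀ k₀ s u k N) := by
    have h3 : (fun i => (k i)⁻¹ * (k₀ ^ 2)⁻¹) =O[l] (fun _ => (1 : ℝ)) :=
      ((hk.inv₀ hk0.ne').mul_const _).isBigO_one ℝ
    have h4 : (fun i => k i - k₀) =O[l] (eta s₀ u₀ k₀ s u k N) := by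
      have := O_k (l := l) (s₀ := s₀) (u₀ := u₀) (k₀ := k₀) (s := s) (u := u) (k := k) (N := N)
      exact (isBigO_norm_left.mp (by simpa [Real.norm_eq_abs] using this))
    have h5 := h3.mul h4
    simp only [one_mul] at h5
    exact h5.abs_left
  refine (so_mul hη (a := fun i => |k i - k₀|)
    (b := fun i => |(k i)⁻¹ * (k₀ ^ 2)⁻¹ * (k i - k₀)|) (fun i => ?_) O_k h2).sub
    ((so_mul hη (a := fun i => |k i - k₀|) (b := fun i => ‖u i - u₀‖) (fun i => ?_)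
    O_k O_u).const_smul_left _)
  · rw [norm_smul, hu1 i, mul_one, norm_mul, Real.norm_eq_abs, Real.norm_eq_abs]
  · rw [norm_smul, Real.norm_eq_abs]

theorem O_v (hη : Tendsto (eta s₀ u₀ k₀ s u k N) l (𝓝 0)) (hk : Tendsto k l (𝓝 k₀)) (hk0 : 0 < k₀)
    (hkp : ∀ i, 0 < k i) (hu₀ : ‖u₀‖ = 1) (hu1 : ∀ i, ‖u i‖ = 1) :
    (fun i => ((k i)⁻¹ - 1) • u i - (k₀⁻¹ - 1) • u₀) =O[l] (eta s₀ u₀ k₀ s u k N) := by
  have h1 := so_v (l := l) (s₀ := s₀) (u₀ := u₀) (k₀ := k₀) (s := s) (u := u) (k := k) (N := N)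
    hη hk hk0 hkp hu1
  have h2 : (fun i => (-(k₀ ^ 2)⁻¹ * (k i - k₀)) • u₀ + (k₀⁻¹ - 1) • (u i - u₀)) =O[l] (eta s₀ u₀ k₀ s u k N) := by
    refine IsBigO.add ?_ ?_
    · have := O_k (l := l) (s₀ := s₀) (u₀ := u₀) (k₀ := k₀) (s := s) (u := u) (k := k) (N := N)
      refine IsBigO.trans (IsBigO.of_bound |-(k₀ ^ 2)⁻¹| (Eventually.of_forall fun i => ?_)) this
      rw [norm_smul, hu₀, mul_one, norm_mul, Real.norm_eq_abs, Real.norm_eq_abs,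
        Real.norm_eq_abs, abs_abs]
    · have := O_u (l := l) (s₀ := s₀) (u₀ := u₀) (k₀ := k₀) (s := s) (u := u) (k := k) (N := N)
      refine IsBigO.trans (IsBigO.of_bound |k₀⁻¹ - 1| (Eventually.of_forall fun i => ?_)) this
      rw [norm_smul, norm_norm, Real.norm_eq_abs]
  refine (h1.isBigO.add h2).congr_left fun i => ?_
  abel

/-- `v - v₀ = Dv (B u₀) + o(η)` -/
theorem so_Dv (hη : Tendsto (eta s₀ u₀ k₀ s u k N) l (𝓝 0)) (hk : Tendsto k l (𝓝 k₀)) (hk0 : 0 < k₀)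
    (hkp : ∀ i, 0 < k i) (hu₀ : ‖u₀‖ = 1) (hu1 : ∀ i, ‖u i‖ = 1) (hN0 : ∀ i, N i (u i) = 0) :
    (fun i => (((k i)⁻¹ - 1) • u i - (k₀⁻¹ - 1) • u₀) - Dv k₀ u₀ ((BB u₀ k₀ u k N) i u₀)) =o[l] (eta s₀ u₀ k₀ s u k N) := by
  have h1 := so_v (l := l) (s₀ := s₀) (u₀ := u₀) (k₀ := k₀) (s := s) (u := u) (k := k) (N := N)
    hη hk hk0 hkp hu1
  have h2 := so_Bu (l := l) (s₀ := s₀) (u₀ := u₀) (k₀ := k₀) (s := s) (u := u) (k := k) (N := N)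
    hη hk hu₀ hu1 hN0
  have h3 := so_inner (l := l) (s₀ := s₀) (u₀ := u₀) (k₀ := k₀) (s := s) (u := u) (k := k) (N := N)
    hη hu₀ hu1
  have h4 : (fun i => Dv k₀ u₀ ((BB u₀ k₀ u k N) i u₀ - ((k i - k₀) • u₀ + k₀ • (u i - u₀)))) =o[l] (eta s₀ u₀ k₀ s u k N) := by
    refine so_bdd (a := fun _ => |(k₀ ^ 2)⁻¹| + |(1 - k₀) * (k₀ ^ 2)⁻¹| * 2)
      (b := fun i => ‖(BB u₀ k₀ u k N) i u₀ - ((k i - k₀) • u₀ + k₀ • (u i - u₀))‖) (fun i => ?_)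
      (isBigO_const_const _ one_ne_zero _) h2.norm_left
    exact norm_Dv_le k₀ hu₀ _
  have h5 : (fun i => ⟪u₀, u i - u₀⟫ • ((k₀⁻¹ + (1 - k₀) * k₀⁻¹) • u₀)) =o[l] (eta s₀ u₀ k₀ s u k N) := by
    refine so_bdd (a := fun _ => ‖(k₀⁻¹ + (1 - k₀) * k₀⁻¹) • u₀‖)
      (b := fun i => ‖⟪u₀, u i - u₀⟫‖) (fun i => ?_)
      (isBigO_const_const _ one_ne_zero _) h3.norm_left
    rw [norm_smul, mul_comm]
  have e : (fun i => (((k i)⁻¹ - 1) • u i - (k₀⁻¹ - 1) • u₀) - Dv k₀ u₀ ((BB u₀ k₀ u k N) i u₀)) =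
      fun i => ((((k i)⁻¹ - 1) • u i - (k₀⁻¹ - 1) • u₀) -
      ((-(k₀ ^ 2)⁻¹ * (k i - k₀)) • u₀ + (k₀⁻¹ - 1) • (u i - u₀))) -
      Dv k₀ u₀ ((BB u₀ k₀ u k N) i u₀ - ((k i - k₀) • u₀ + k₀ • (u i - u₀))) +
      ⟪u₀, u i - u₀⟫ • ((k₀⁻¹ + (1 - k₀) * k₀⁻¹) • u₀) := by
    funext i
    have h6 : Dv k₀ u₀ ((BB u₀ k₀ u k N) i u₀) = Dv k₀ u₀ ((BB u₀ k₀ u k N) i u₀ - ((k i - k₀) • u₀ + k₀ • (u i - u₀))) +
        Dv k₀ u₀ ((k i - k₀) • u₀ + k₀ • (u i - u₀)) := by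
      rw [← Dv_add, sub_add_cancel]
    have h7 : Dv k₀ u₀ ((k i - k₀) • u₀ + k₀ • (u i - u₀)) =
        ((-(k₀ ^ 2)⁻¹ * (k i - k₀)) • u₀ + (k₀⁻¹ - 1) • (u i - u₀)) -
        ⟪u₀, u i - u₀⟫ • ((k₀⁻¹ + (1 - k₀) * k₀⁻¹) • u₀) := by
      have h8 : ⟪u₀, (k i - k₀) • u₀ + k₀ • (u i - u₀)⟫ =
          (k i - k₀) + k₀ * ⟪u₀, u i - u₀⟫ := by
        rw [inner_add_right, inner_smul_right, inner_smul_right, inner_self_one hu₀, mul_one]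
      have h9 : (1 - k₀) * (k₀ ^ 2)⁻¹ * k₀ = k₀⁻¹ - 1 := by field_simp
      have h10 : (k₀ ^ 2)⁻¹ * k₀ = k₀⁻¹ := by field_simp
      have h11 : (1 - k₀) * k₀⁻¹ = k₀⁻¹ - 1 := by field_simp
      rw [Dv, h8, h11]
      set τ := ⟪u₀, u i - u₀⟫
      set e₃ := u i - u₀
      have h12 : (-(k₀ ^ 2)⁻¹ * (k i - k₀ + k₀ * τ)) = -(k₀ ^ 2)⁻¹ * (k i - k₀) - k₀⁻¹ * τ := by
        rw [← h10]; ring
      have h13 : ((1 - k₀) * (k₀ ^ 2)⁻¹) •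
          ((k i - k₀) • u₀ + k₀ • e₃ - (k i - k₀ + k₀ * τ) • u₀) =
          ((1 - k₀) * (k₀ ^ 2)⁻¹ * k₀) • (e₃ - τ • u₀) := by module
      rw [h12, h13, h9]
      module
    rw [h6, h7]
    abel
  rw [e]
  exact (h1.sub h4).add h5

/-- `Dn B = N + o(η)` -/
theorem so_Dn (hη : Tendsto (eta s₀ u₀ k₀ s u k N) l (𝓝 0)) (hk : Tendsto k l (𝓝 k₀)) (hu₀ : ‖u₀‖ = 1)
    (hu1 : ∀ i, ‖u i‖ = 1) (hN0 : ∀ i, N i (u i) = 0) :
    (fun i => Dn u₀ ((BB u₀ k₀ u k N) i) - N i) =o[l] (eta s₀ u₀ k₀ s u k N) := by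
  have h2 := so_Bu (l := l) (s₀ := s₀) (u₀ := u₀) (k₀ := k₀) (s := s) (u := u) (k := k) (N := N)
    hη hk hu₀ hu1 hN0
  have h3 := so_inner (l := l) (s₀ := s₀) (u₀ := u₀) (k₀ := k₀) (s := s) (u := u) (k := k) (N := N)
    hη hu₀ hu1
  set r : ι → V := fun i => (BB u₀ k₀ u k N) i u₀ - ((k i - k₀) • u₀ + k₀ • (u i - u₀)) with hr
  have e : (fun i => Dn u₀ ((BB u₀ k₀ u k N) i) - N i) = fun i =>
      (k i - k₀) • (ten (u i - u₀) u₀) + (k i - k₀) • ten u₀ (u i - u₀) +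
      k i • ten (u i - u₀) (u i - u₀) - ten (r i) u₀ -
      ten u₀ (r i - (k₀ * ⟪u₀, u i - u₀⟫ + ⟪u₀, r i⟫) • u₀) := by
    funext i
    have h4 : (BB u₀ k₀ u k N) i u₀ = (k i - k₀) • u₀ + k₀ • (u i - u₀) + r i := by
      simp only [hr]; abel
    have h5 : ⟪u₀, (BB u₀ k₀ u k N) i u₀⟫ = (k i - k₀) + k₀ * ⟪u₀, u i - u₀⟫ + ⟪u₀, r i⟫ := by
      rw [h4, inner_add_right, inner_add_right, inner_smul_right, inner_smul_right,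
        inner_self_one hu₀, mul_one]
    have h6 : (BB u₀ k₀ u k N) i = (k i - k₀) • ten u₀ u₀ + k₀ • (ten (u i - u₀) u₀ + ten u₀ (u i - u₀)) + N i +
        ((k i - k₀) • (ten (u i - u₀) u₀) + (k i - k₀) • ten u₀ (u i - u₀) +
        k i • ten (u i - u₀) (u i - u₀)) := by
      simp only [BB, ten_sub, ten_sub_right]
      module
    rw [Dn, h5, h4]
    simp only [ten_add, ten_add_right, ten_sub_right, ten_smul, ten_smul_right]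
    rw [h6]
    simp only [ten_sub, ten_sub_right]
    module
  rw [e]
  have hr' : (fun i => ‖r i‖) =o[l] (eta s₀ u₀ k₀ s u k N) := h2.norm_left
  have h7 : (fun i => (k i - k₀) • (ten (u i - u₀) u₀)) =o[l] (eta s₀ u₀ k₀ s u k N) :=
    so_mul hη (a := fun i => |k i - k₀|) (b := fun i => ‖u i - u₀‖) (fun i => by
      rw [norm_smul, norm_ten, hu₀, one_mul, Real.norm_eq_abs]) O_k O_u
  have h8 : (fun i => (k i - k₀) • (ten u₀ (u i - u₀))) =o[l] (eta s₀ u₀ k₀ s u k N) :=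
    so_mul hη (a := fun i => |k i - k₀|) (b := fun i => ‖u i - u₀‖) (fun i => by
      rw [norm_smul, norm_ten, hu₀, mul_one, Real.norm_eq_abs]) O_k O_u
  have h9 : (fun i => ten (u i - u₀) (u i - u₀)) =o[l] (eta s₀ u₀ k₀ s u k N) :=
    so_mul hη (a := fun i => ‖u i - u₀‖) (b := fun i => ‖u i - u₀‖) (fun i => by
      rw [norm_ten]) O_u O_u
  have h10 : (fun i => k i • ten (u i - u₀) (u i - u₀)) =o[l] (eta s₀ u₀ k₀ s u k N) :=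
    so_bdd (a := fun i => ‖k i‖) (b := fun i => ‖ten (u i - u₀) (u i - u₀)‖) (fun i => by
      rw [norm_smul]) (bdd_of_tendsto hk) h9.norm_left
  have h11 : (fun i => ten (r i) u₀) =o[l] (eta s₀ u₀ k₀ s u k N) :=
    so_bdd (a := fun _ => (1 : ℝ)) (b := fun i => ‖r i‖) (fun i => by
      rw [norm_ten, hu₀]) (isBigO_refl _ _) hr'
  have h12 : (fun i => k₀ * ⟪u₀, u i - u₀⟫ + ⟪u₀, r i⟫) =o[l] (eta s₀ u₀ k₀ s u k N) := by
    refine (h3.const_mul_left k₀).add ?_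
    exact so_bdd (a := fun _ => (1 : ℝ)) (b := fun i => ‖r i‖) (fun i => by
      rw [Real.norm_eq_abs]; have := abs_real_inner_le_norm u₀ (r i); rwa [hu₀] at this)
      (isBigO_refl _ _) hr'
  have h13 : (fun i => (k₀ * ⟪u₀, u i - u₀⟫ + ⟪u₀, r i⟫) • u₀) =o[l] (eta s₀ u₀ k₀ s u k N) :=
    so_bdd (a := fun _ => (1 : ℝ)) (b := fun i => ‖k₀ * ⟪u₀, u i - u₀⟫ + ⟪u₀, r i⟫‖) (fun i => by
      rw [norm_smul, hu₀, mul_one, one_mul]) (isBigO_refl _ _) h12.norm_left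
  have h14 : (fun i => ten u₀ (r i - (k₀ * ⟪u₀, u i - u₀⟫ + ⟪u₀, r i⟫) • u₀)) =o[l] (eta s₀ u₀ k₀ s u k N) :=
    so_bdd (a := fun _ => (1 : ℝ))
      (b := fun i => ‖r i - (k₀ * ⟪u₀, u i - u₀⟫ + ⟪u₀, r i⟫) • u₀‖) (fun i => by
      rw [norm_ten, hu₀, mul_one, one_mul]) (isBigO_refl _ _) (h2.sub h13).norm_left
  exact (((h7.add h8).add h10).sub h11).sub h14

/-- the parameters are controlled by `(s - s₀, B)` -/
theorem eta_isBigO (hη : Tendsto (eta s₀ u₀ k₀ s u k N) l (𝓝 0)) (hk : Tendsto k l (𝓝 k₀)) (hk0 : 0 < k₀)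
    (hu₀ : ‖u₀‖ = 1) (hu1 : ∀ i, ‖u i‖ = 1) (hN0 : ∀ i, N i (u i) = 0) :
    (eta s₀ u₀ k₀ s u k N) =O[l] (fun i => ((s i - s₀, (BB u₀ k₀ u k N) i) : V × (V →L[ℝ] V))) := by
  have h2 := so_Bu (l := l) (s₀ := s₀) (u₀ := u₀) (k₀ := k₀) (s := s) (u := u) (k := k) (N := N)
    hη hk hu₀ hu1 hN0
  have h3 := so_inner (l := l) (s₀ := s₀) (u₀ := u₀) (k₀ := k₀) (s := s) (u := u) (k := k) (N := N)
    hη hu₀ hu1
  have h4 := so_Dn (l := l) (s₀ := s₀) (u₀ := u₀) (k₀ := k₀) (s := s) (u := u) (k := k) (N := N)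
    hη hk hu₀ hu1 hN0
  set ε : ℝ := (2 * ((k₀ + 2) * (1 + k₀⁻¹)))⁻¹ with hε
  have hε0 : 0 < ε := by positivity
  refine IsBigO.of_bound (2 * (6 + 2 * k₀⁻¹)) ?_
  filter_upwards [h2.def hε0, h3.def hε0, h4.def hε0] with i h5 h6 h7
  rw [Real.norm_of_nonneg (eta_nonneg i)] at h5 h6 h7 ⊢
  rw [Real.norm_eq_abs] at h6
  set z : V × (V →L[ℝ] V) := (s i - s₀, (BB u₀ k₀ u k N) i) with hz
  have hz1 : ‖s i - s₀‖ ≤ ‖z‖ := norm_fst_le z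
  have hz2 : ‖(BB u₀ k₀ u k N) i‖ ≤ ‖z‖ := norm_snd_le z
  set r : V := (BB u₀ k₀ u k N) i u₀ - ((k i - k₀) • u₀ + k₀ • (u i - u₀)) with hr
  have hBu : ‖(BB u₀ k₀ u k N) i u₀‖ ≤ ‖z‖ := by
    have := ((BB u₀ k₀ u k N) i).le_opNorm u₀
    rw [hu₀, mul_one] at this
    exact this.trans hz2
  have h8 : (BB u₀ k₀ u k N) i u₀ = (k i - k₀) • u₀ + k₀ • (u i - u₀) + r := by rw [hr]; abel
  have h9 : k i - k₀ = ⟪u₀, (BB u₀ k₀ u k N) i u₀⟫ - k₀ * ⟪u₀, u i - u₀⟫ - ⟪u₀, r⟫ := by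
    rw [h8, inner_add_right, inner_add_right, inner_smul_right, inner_smul_right,
      inner_self_one hu₀, mul_one]
    ring
  have h10 : |k i - k₀| ≤ ‖z‖ + k₀ * (ε * (eta s₀ u₀ k₀ s u k N) i) + ε * (eta s₀ u₀ k₀ s u k N) i := by
    have a1 : |⟪u₀, (BB u₀ k₀ u k N) i u₀⟫| ≤ ‖z‖ := by
      have := abs_real_inner_le_norm u₀ ((BB u₀ k₀ u k N) i u₀)
      rw [hu₀, one_mul] at this
      exact this.trans hBu
    have a2 : |k₀ * ⟪u₀, u i - u₀⟫| ≤ k₀ * (ε * (eta s₀ u₀ k₀ s u k N) i) := by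
      rw [abs_mul, abs_of_pos hk0]
      exact mul_le_mul_of_nonneg_left h6 hk0.le
    have a3 : |⟪u₀, r⟫| ≤ ε * (eta s₀ u₀ k₀ s u k N) i := by
      have := abs_real_inner_le_norm u₀ r
      rw [hu₀, one_mul] at this
      exact this.trans h5
    rw [h9]
    have a4 := abs_sub (⟪u₀, (BB u₀ k₀ u k N) i u₀⟫ - k₀ * ⟪u₀, u i - u₀⟫) ⟪u₀, r⟫
    have a5 := abs_sub ⟪u₀, (BB u₀ k₀ u k N) i u₀⟫ (k₀ * ⟪u₀, u i - u₀⟫)
    linarith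
  have h11 : k₀ * ‖u i - u₀‖ ≤ ‖z‖ + |k i - k₀| + ε * (eta s₀ u₀ k₀ s u k N) i := by
    have a1 : k₀ • (u i - u₀) = (BB u₀ k₀ u k N) i u₀ - (k i - k₀) • u₀ - r := by rw [h8]; abel
    have a2 : k₀ * ‖u i - u₀‖ = ‖(BB u₀ k₀ u k N) i u₀ - (k i - k₀) • u₀ - r‖ := by
      rw [← a1, norm_smul, Real.norm_of_nonneg hk0.le]
    rw [a2]
    have a3 := norm_sub_le ((BB u₀ k₀ u k N) i u₀ - (k i - k₀) • u₀) r
    have a4 := norm_sub_le ((BB u₀ k₀ u k N) i u₀) ((k i - k₀) • u₀)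
    rw [norm_smul, hu₀, mul_one, Real.norm_eq_abs] at a4
    linarith
  have h12 : ‖N i‖ ≤ 4 * ‖z‖ + ε * (eta s₀ u₀ k₀ s u k N) i := by
    have a1 : N i = Dn u₀ ((BB u₀ k₀ u k N) i) - (Dn u₀ ((BB u₀ k₀ u k N) i) - N i) := by abel
    have a2 := norm_sub_le (Dn u₀ ((BB u₀ k₀ u k N) i)) (Dn u₀ ((BB u₀ k₀ u k N) i) - N i)
    rw [← a1] at a2
    have a3 := norm_Dn_le hu₀ ((BB u₀ k₀ u k N) i)
    linarith
  have h13 : ‖u i - u₀‖ ≤ k₀⁻¹ * (2 * ‖z‖ + (k₀ + 2) * (ε * (eta s₀ u₀ k₀ s u k N) i)) := by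
    have a1 : k₀ * ‖u i - u₀‖ ≤ 2 * ‖z‖ + (k₀ + 2) * (ε * (eta s₀ u₀ k₀ s u k N) i) := by linarith
    have a2 := mul_le_mul_of_nonneg_left a1 (inv_pos.mpr hk0).le
    rwa [← mul_assoc, inv_mul_cancel₀ hk0.ne', one_mul] at a2
  have h14 : (eta s₀ u₀ k₀ s u k N) i = ‖s i - s₀‖ + |k i - k₀| + ‖u i - u₀‖ + ‖N i‖ := rfl
  have h15 : (k₀ + 2) * (1 + k₀⁻¹) * (ε * (eta s₀ u₀ k₀ s u k N) i) = (eta s₀ u₀ k₀ s u k N) i / 2 := by
    rw [hε]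
    have : (k₀ + 2) * (1 + k₀⁻¹) ≠ 0 := by positivity
    field_simp
  have h16 : (eta s₀ u₀ k₀ s u k N) i ≤ (6 + 2 * k₀⁻¹) * ‖z‖ + (k₀ + 2) * (1 + k₀⁻¹) * (ε * (eta s₀ u₀ k₀ s u k N) i) := by
    have a1 : k₀⁻¹ * (2 * ‖z‖ + (k₀ + 2) * (ε * (eta s₀ u₀ k₀ s u k N) i)) =
        2 * k₀⁻¹ * ‖z‖ + (k₀ + 2) * k₀⁻¹ * (ε * (eta s₀ u₀ k₀ s u k N) i) := by ring
    rw [a1] at h13
    have a2 : (k₀ + 2) * (1 + k₀⁻¹) * (ε * (eta s₀ u₀ k₀ s u k N) i) =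
        (k₀ + 2) * (ε * (eta s₀ u₀ k₀ s u k N) i) + (k₀ + 2) * k₀⁻¹ * (ε * (eta s₀ u₀ k₀ s u k N) i) := by ring
    rw [a2]
    linarith
  rw [h15] at h16
  linarith

theorem so_clm {f : ι → V} {φ : ι → ℝ} (M : V →L[ℝ] V) (hf : f =o[l] φ) :
    (fun i => M (f i)) =o[l] φ :=
  so_bdd (a := fun _ => ‖M‖) (b := fun i => ‖f i‖) (fun _ => M.le_opNorm _)
    (isBigO_const_const _ one_ne_zero _) hf.norm_left

/-- the sheet is differentiable at its zero, abstract form -/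
theorem sheet_isLittleO (hs : Tendsto s l (𝓝 s₀)) (hk : Tendsto k l (𝓝 k₀))
    (hu : Tendsto u l (𝓝 u₀)) (hN : Tendsto N l (𝓝 0)) (hk0 : 0 < k₀)
    (hkp : ∀ i, 0 < k i) (hu₀ : ‖u₀‖ = 1) (hu1 : ∀ i, ‖u i‖ = 1) (hN0 : ∀ i, N i (u i) = 0)
    {a b : ι → V} {h : ι → ℝ} {h₀ : ℝ} (hh : Tendsto h l (𝓝 h₀)) (L L' : V ≃L[ℝ] V)
    (ha : (fun i => a i - L ((s i - s₀) + (((k i)⁻¹ - 1) • u i - (k₀⁻¹ - 1) • u₀))) =o[l] (eta s₀ u₀ k₀ s u k N))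
    (hb : (fun i => b i - L' ((s i - s₀) - (((k i)⁻¹ - 1) • u i - (k₀⁻¹ - 1) • u₀))) =o[l] (eta s₀ u₀ k₀ s u k N)) :
    (fun i => (((2⁻¹ : ℝ) • (a i + b i), ten ((2⁻¹ : ℝ) • (a i - b i)) (u i) + h i • N i) :
      V × (V →L[ℝ] V)) - lamL k₀ u₀ L L' h₀ (s i - s₀, (BB u₀ k₀ u k N) i)) =o[l]
      (fun i => ((s i - s₀, (BB u₀ k₀ u k N) i) : V × (V →L[ℝ] V))) := by
  have hη : Tendsto (eta s₀ u₀ k₀ s u k N) l (𝓝 0) := eta_tendsto hs hk hu hN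
  refine IsLittleO.trans_isBigO ?_ (eta_isBigO hη hk hk0 hu₀ hu1 hN0)
  have h1 := so_Dv (l := l) (s₀ := s₀) (u₀ := u₀) (k₀ := k₀) (s := s) (u := u) (k := k) (N := N)
    hη hk hk0 hkp hu₀ hu1 hN0
  have h2 := so_Dn (l := l) (s₀ := s₀) (u₀ := u₀) (k₀ := k₀) (s := s) (u := u) (k := k) (N := N)
    hη hk hu₀ hu1 hN0
  set w : ι → V := fun i => ((k i)⁻¹ - 1) • u i - (k₀⁻¹ - 1) • u₀ with hw
  set d : ι → V := fun i => Dv k₀ u₀ ((BB u₀ k₀ u k N) i u₀) with hd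
  have ha' : (fun i => a i - L (s i - s₀ + d i)) =o[l] (eta s₀ u₀ k₀ s u k N) := by
    have := ha.add (so_clm (L : V →L[ℝ] V) h1)
    refine this.congr_left fun i => ?_
    change a i - L (s i - s₀ + w i) + L (w i - d i) = a i - L (s i - s₀ + d i)
    rw [sub_add, ← map_sub]
    congr 2
    abel
  have hb' : (fun i => b i - L' (s i - s₀ - d i)) =o[l] (eta s₀ u₀ k₀ s u k N) := by
    have := hb.sub (so_clm (L' : V →L[ℝ] V) h1)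
    refine this.congr_left fun i => ?_
    change b i - L' (s i - s₀ - w i) - L' (w i - d i) = b i - L' (s i - s₀ - d i)
    rw [sub_sub, ← map_add]
    congr 2
    abel
  have hc1 : (fun i => (2⁻¹ : ℝ) • (a i + b i) -
      (2⁻¹ : ℝ) • (L (s i - s₀ + d i) + L' (s i - s₀ - d i))) =o[l] (eta s₀ u₀ k₀ s u k N) := by
    refine ((ha'.add hb').const_smul_left (2⁻¹ : ℝ)).congr_left fun i => ?_
    simp only [Pi.smul_apply]
    module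
  have hc2 : (fun i => (2⁻¹ : ℝ) • (a i - b i) -
      (2⁻¹ : ℝ) • (L (s i - s₀ + d i) - L' (s i - s₀ - d i))) =o[l] (eta s₀ u₀ k₀ s u k N) := by
    refine ((ha'.sub hb').const_smul_left (2⁻¹ : ℝ)).congr_left fun i => ?_
    simp only [Pi.smul_apply]
    module
  -- first order bounds
  have hOs : (fun i => s i - s₀) =O[l] (eta s₀ u₀ k₀ s u k N) := isBigO_norm_left.mp O_s
  have hB : (fun i => ‖(BB u₀ k₀ u k N) i‖) =O[l] (eta s₀ u₀ k₀ s u k N) := by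
    have e : (BB u₀ k₀ u k N) = fun i => (k i - k₀) • ten u₀ u₀ +
        k i • (ten (u i - u₀) u₀ + ten (u i) (u i - u₀)) + N i := by
      funext i
      simp only [BB, ten_sub, ten_sub_right]
      module
    refine IsBigO.norm_left ?_
    rw [e]
    have b1 : (fun i => (k i - k₀) • ten u₀ u₀) =O[l] (eta s₀ u₀ k₀ s u k N) := by
      have := O_k (l := l) (s₀ := s₀) (u₀ := u₀) (k₀ := k₀) (s := s) (u := u) (k := k) (N := N)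
      refine IsBigO.trans (IsBigO.of_bound 1 (Eventually.of_forall fun i => ?_)) this
      rw [norm_smul, norm_ten, hu₀, Real.norm_eq_abs, Real.norm_eq_abs, abs_abs]
      linarith
    have b2 : (fun i => ten (u i - u₀) u₀ + ten (u i) (u i - u₀)) =O[l] (eta s₀ u₀ k₀ s u k N) := by
      have := O_u (l := l) (s₀ := s₀) (u₀ := u₀) (k₀ := k₀) (s := s) (u := u) (k := k) (N := N)
      refine IsBigO.trans (IsBigO.of_bound 2 (Eventually.of_forall fun i => ?_)) this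
      refine (norm_add_le _ _).trans ?_
      rw [norm_ten, norm_ten, hu₀, hu1 i, norm_norm]
      linarith
    have b3 : (fun i => k i • (ten (u i - u₀) u₀ + ten (u i) (u i - u₀))) =O[l] (eta s₀ u₀ k₀ s u k N) := by
      have := (hk.isBigO_one ℝ).smul b2
      simpa only [one_smul, smul_eq_mul, one_mul] using this
    exact (b1.add b3).add (isBigO_norm_left.mp O_N)
  have hOd : (fun i => d i) =O[l] (eta s₀ u₀ k₀ s u k N) := by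
    refine IsBigO.trans (IsBigO.of_bound (|(k₀ ^ 2)⁻¹| + |(1 - k₀) * (k₀ ^ 2)⁻¹| * 2)
      (Eventually.of_forall fun i => ?_)) hB
    refine (norm_Dv_le k₀ hu₀ _).trans (mul_le_mul_of_nonneg_left ?_ (by positivity))
    rw [norm_norm]
    have := ((BB u₀ k₀ u k N) i).le_opNorm u₀
    rwa [hu₀, mul_one] at this
  have hOa : (fun i => a i) =O[l] (eta s₀ u₀ k₀ s u k N) := by
    have h3 : (fun i => L (s i - s₀ + d i)) =O[l] (eta s₀ u₀ k₀ s u k N) := by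
      refine IsBigO.trans (IsBigO.of_bound ‖(L : V →L[ℝ] V)‖ (Eventually.of_forall fun i => ?_))
        (hOs.add hOd)
      exact (L : V →L[ℝ] V).le_opNorm _
    refine (ha'.isBigO.add h3).congr_left fun i => ?_
    abel
  have hOb : (fun i => b i) =O[l] (eta s₀ u₀ k₀ s u k N) := by
    have h3 : (fun i => L' (s i - s₀ - d i)) =O[l] (eta s₀ u₀ k₀ s u k N) := by
      refine IsBigO.trans (IsBigO.of_bound ‖(L' : V →L[ℝ] V)‖ (Eventually.of_forall fun i => ?_))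
        (hOs.sub hOd)
      exact (L' : V →L[ℝ] V).le_opNorm _
    refine (hb'.isBigO.add h3).congr_left fun i => ?_
    abel
  have hOab : (fun i => ‖(2⁻¹ : ℝ) • (a i - b i)‖) =O[l] (eta s₀ u₀ k₀ s u k N) :=
    ((hOa.sub hOb).const_smul_left (2⁻¹ : ℝ)).norm_left
  have hc3 : (fun i => ten ((2⁻¹ : ℝ) • (a i - b i)) (u i - u₀)) =o[l] (eta s₀ u₀ k₀ s u k N) :=
    so_mul hη (a := fun i => ‖(2⁻¹ : ℝ) • (a i - b i)‖) (b := fun i => ‖u i - u₀‖) (fun i => by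
      rw [norm_ten, mul_comm]) hOab O_u
  have hc4 : (fun i => ten ((2⁻¹ : ℝ) • (a i - b i) -
      (2⁻¹ : ℝ) • (L (s i - s₀ + d i) - L' (s i - s₀ - d i))) u₀) =o[l] (eta s₀ u₀ k₀ s u k N) :=
    so_bdd (a := fun _ => (1 : ℝ)) (b := fun i => ‖(2⁻¹ : ℝ) • (a i - b i) -
      (2⁻¹ : ℝ) • (L (s i - s₀ + d i) - L' (s i - s₀ - d i))‖) (fun i => by
      rw [norm_ten, hu₀]) (isBigO_refl _ _) hc2.norm_left
  have hc5 : (fun i => (h i - h₀) • N i) =o[l] (eta s₀ u₀ k₀ s u k N) := by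
    have h3 : (fun i => h i - h₀) =o[l] (fun _ => (1 : ℝ)) := by
      rw [isLittleO_one_iff]
      have := hh.sub_const h₀
      rwa [sub_self] at this
    have h4 : (fun i => N i) =O[l] (eta s₀ u₀ k₀ s u k N) := isBigO_norm_left.mp O_N
    have := h3.smul_isBigO h4
    simpa only [one_smul, smul_eq_mul, one_mul] using this
  have hc6 : (fun i => h₀ • (Dn u₀ ((BB u₀ k₀ u k N) i) - N i)) =o[l] (eta s₀ u₀ k₀ s u k N) :=
    (h2.const_smul_left h₀).congr_left fun i => rfl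
  have hc7 : (fun i => ten ((2⁻¹ : ℝ) • (a i - b i)) (u i) + h i • N i -
      (ten ((2⁻¹ : ℝ) • (L (s i - s₀ + d i) - L' (s i - s₀ - d i))) u₀ + h₀ • Dn u₀ ((BB u₀ k₀ u k N) i))) =o[l]
      (eta s₀ u₀ k₀ s u k N) := by
    refine (((hc3.add hc4).add hc5).sub hc6).congr_left fun i => ?_
    simp only [ten_sub, ten_smul, ten_sub_right]
    module
  exact hc1.prod_left hc7

end main

/-- near `k₀ ten u₀ u₀` every operator is `k ten u u + N` with `(k, u, N)` near `(k₀, u₀, 0)` -/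
theorem exists_tube_near [CompleteSpace V] {k₀ : ℝ} {u₀ : V} (hk : 0 < k₀) (hu : ‖u₀‖ = 1)
    {U : Set (ℝ × V × (V →L[ℝ] V))} (hU : U ∈ 𝓝 (k₀, u₀, (0 : V →L[ℝ] V))) :
    ∀ᶠ A : V →L[ℝ] V in 𝓝 (k₀ • ten u₀ u₀), ∃ k u N, (k, u, N) ∈ U ∧ 0 < k ∧ ‖u‖ = 1 ∧
      N u = 0 ∧ A = k • ten u u + N := by
  have hU' : (fun q : ℝ × V × (V →L[ℝ] V) × V => (q.1, q.2.1, q.2.2.1)) ⁻¹' U ∈
      𝓝 (k₀, u₀, (0 : V →L[ℝ] V), (0 : V)) := by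
    have : Continuous (fun q : ℝ × V × (V →L[ℝ] V) × V => (q.1, q.2.1, q.2.2.1)) := by fun_prop
    exact this.continuousAt.preimage_mem_nhds hU
  have h := rot_surj' (t₀ := 0) (x₀ := (0 : V)) le_rfl zero_le_one hk hu (by simp)
    (by rw [norm_zero]; positivity) hU'
  have e1 : tA 0 k₀ u₀ (0 : V) 0 = k₀ • ten u₀ u₀ := by
    simp [tA]
  have e2 : tz 0 k₀ u₀ (0 : V) = u₀ := by simp [tz]
  rw [e1, e2] at h
  have hc : Tendsto (fun A : V →L[ℝ] V => ((0 : ℝ), A, u₀)) (𝓝 (k₀ • ten u₀ u₀))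
      (𝓝 (0, k₀ • ten u₀ u₀, u₀)) := by
    have : Continuous (fun A : V →L[ℝ] V => ((0 : ℝ), A, u₀)) := by fun_prop
    exact this.tendsto _
  filter_upwards [hc.eventually h] with A hA
  obtain ⟨k, u, N, x, h1, h2, h3, h4, h5, -⟩ := hA
  refine ⟨k, u, N, h1, h2, h3, h4, ?_⟩
  change A = tA 0 k u x N at h5
  rw [h5]; simp [tA]

/-- **The sheet of a pair is differentiable at its zero with invertible derivative.** -/
theorem hasFDerivAt_sheet [FiniteDimensional ℝ V] {g g' : V → V} {L L' : V ≃L[ℝ] V} {a₀ b₀ : V}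
    (hg : HasFDerivAt g (L : V →L[ℝ] V) a₀) (hg0 : g a₀ = 0)
    (hg' : HasFDerivAt g' (L' : V →L[ℝ] V) b₀) (hg0' : g' b₀ = 0)
    {k₀ : ℝ} (hk0 : 0 < k₀) (hk1 : k₀ ≠ 1) {u₀ : V} (hu₀ : ‖u₀‖ = 1)
    (hv : (2⁻¹ : ℝ) • (a₀ - b₀) = (k₀⁻¹ - 1) • u₀)
    {h : ℝ → (V →L[ℝ] V) → ℝ} {h₀ : ℝ}
    (hh : Tendsto (fun p : ℝ × (V →L[ℝ] V) => h p.1 p.2) (𝓝 (k₀, 0)) (𝓝 h₀)) (hh0 : h₀ ≠ 0)
    {f : V × (V →L[ℝ] V) → V × (V →L[ℝ] V)}
    (hf0 : f ((2⁻¹ : ℝ) • (a₀ + b₀), k₀ • ten u₀ u₀) = 0)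
    (hf : ∀ U ∈ 𝓝 (k₀, u₀, (0 : V →L[ℝ] V)),
      ∀ᶠ z : V × (V →L[ℝ] V) in 𝓝 ((2⁻¹ : ℝ) • (a₀ + b₀), k₀ • ten u₀ u₀),
        ∃ k u N, (k, u, N) ∈ U ∧ 0 < k ∧ ‖u‖ = 1 ∧ N u = 0 ∧ z.2 = k • ten u u + N ∧
        f z = ((2⁻¹ : ℝ) • (g (z.1 + (k⁻¹ - 1) • u) + g' (z.1 - (k⁻¹ - 1) • u)),
          ten ((2⁻¹ : ℝ) • (g (z.1 + (k⁻¹ - 1) • u) - g' (z.1 - (k⁻¹ - 1) • u))) u +
            h k N • N)) :
    ∃ Λ : (V × (V →L[ℝ] V)) ≃L[ℝ] (V × (V →L[ℝ] V)),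
      HasFDerivAt f (Λ : (V × (V →L[ℝ] V)) →L[ℝ] (V × (V →L[ℝ] V)))
        ((2⁻¹ : ℝ) • (a₀ + b₀), k₀ • ten u₀ u₀) := by
  set s₀ : V := (2⁻¹ : ℝ) • (a₀ + b₀) with hs₀
  set z₀ : V × (V →L[ℝ] V) := (s₀, k₀ • ten u₀ u₀) with hz₀
  let Λ := (LinearEquiv.ofInjectiveEndo (lamL k₀ u₀ L L' h₀)
    (lamL_inj hk0.ne' hk1 hu₀ hh0 L L')).toContinuousLinearEquiv
  have hΛ : ∀ z, Λ z = lamL k₀ u₀ L L' h₀ z := fun z => rfl
  refine ⟨Λ, ?_⟩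
  rw [hasFDerivAt_iff_isLittleO, hf0]
  -- the space of parameters
  let R : Set ((V × (V →L[ℝ] V)) × ℝ × V × (V →L[ℝ] V)) := {q | 0 < q.2.1 ∧ ‖q.2.2.1‖ = 1 ∧
    q.2.2.2 q.2.2.1 = 0 ∧ q.1.2 = q.2.1 • ten q.2.2.1 q.2.2.1 + q.2.2.2 ∧
    f q.1 = ((2⁻¹ : ℝ) • (g (q.1.1 + (q.2.1⁻¹ - 1) • q.2.2.1) +
      g' (q.1.1 - (q.2.1⁻¹ - 1) • q.2.2.1)),
      ten ((2⁻¹ : ℝ) • (g (q.1.1 + (q.2.1⁻¹ - 1) • q.2.2.1) -
        g' (q.1.1 - (q.2.1⁻¹ - 1) • q.2.2.1))) q.2.2.1 + h q.2.1 q.2.2.2 • q.2.2.2)}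
  let l : Filter R := comap Subtype.val (𝓝 (z₀, k₀, u₀, 0))
  have hl : Tendsto (Subtype.val : R → _) l (𝓝 (z₀, k₀, u₀, 0)) := tendsto_comap
  have ts : Tendsto (fun q : R => q.1.1.1) l (𝓝 s₀) :=
    ((continuous_fst.comp continuous_fst).tendsto (z₀, k₀, u₀, (0 : V →L[ℝ] V))).comp hl
  have tk : Tendsto (fun q : R => q.1.2.1) l (𝓝 k₀) :=
    ((continuous_fst.comp continuous_snd).tendsto (z₀, k₀, u₀, (0 : V →L[ℝ] V))).comp hl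
  have tu : Tendsto (fun q : R => q.1.2.2.1) l (𝓝 u₀) :=
    ((continuous_fst.comp (continuous_snd.comp continuous_snd)).tendsto
      (z₀, k₀, u₀, (0 : V →L[ℝ] V))).comp hl
  have tN : Tendsto (fun q : R => q.1.2.2.2) l (𝓝 0) :=
    ((continuous_snd.comp (continuous_snd.comp continuous_snd)).tendsto
      (z₀, k₀, u₀, (0 : V →L[ℝ] V))).comp hl
  have th : Tendsto (fun q : R => h q.1.2.1 q.1.2.2.2) l (𝓝 h₀) := by
    have h1 : Tendsto (fun q : R => (q.1.2.1, q.1.2.2.2)) l (𝓝 (k₀, (0 : V →L[ℝ] V))) :=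
      tk.prodMk_nhds tN
    exact hh.comp h1
  have hη := eta_tendsto ts tk tu tN
  have hkp : ∀ q : R, 0 < q.1.2.1 := fun q => q.2.1
  have hu1 : ∀ q : R, ‖q.1.2.2.1‖ = 1 := fun q => q.2.2.1
  have hN0 : ∀ q : R, q.1.2.2.2 q.1.2.2.1 = 0 := fun q => q.2.2.2.1
  have hOv := O_v (l := l) (s₀ := s₀) (u₀ := u₀) (k₀ := k₀) (s := fun q : R => q.1.1.1)
    (u := fun q : R => q.1.2.2.1) (k := fun q : R => q.1.2.1) (N := fun q : R => q.1.2.2.2)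
    hη tk hk0 hkp hu₀ hu1
  have hOs : (fun q : R => q.1.1.1 - s₀) =O[l] (eta s₀ u₀ k₀ (fun q : R => q.1.1.1)
      (fun q : R => q.1.2.2.1) (fun q : R => q.1.2.1) (fun q : R => q.1.2.2.2)) :=
    isBigO_norm_left.mp O_s
  have tv : Tendsto (fun q : R => (q.1.2.1⁻¹ - 1) • q.1.2.2.1) l (𝓝 ((k₀⁻¹ - 1) • u₀)) :=
    ((tk.inv₀ hk0.ne').sub_const 1).smul tu
  have ea : s₀ + (k₀⁻¹ - 1) • u₀ = a₀ := by rw [hs₀, ← hv]; module
  have eb : s₀ - (k₀⁻¹ - 1) • u₀ = b₀ := by rw [hs₀, ← hv]; module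
  have ta : Tendsto (fun q : R => q.1.1.1 + (q.1.2.1⁻¹ - 1) • q.1.2.2.1) l (𝓝 a₀) := by
    rw [← ea]; exact ts.add tv
  have tb : Tendsto (fun q : R => q.1.1.1 - (q.1.2.1⁻¹ - 1) • q.1.2.2.1) l (𝓝 b₀) := by
    rw [← eb]; exact ts.sub tv
  have ha : (fun q : R => g (q.1.1.1 + (q.1.2.1⁻¹ - 1) • q.1.2.2.1) -
      L ((q.1.1.1 - s₀) + ((q.1.2.1⁻¹ - 1) • q.1.2.2.1 - (k₀⁻¹ - 1) • u₀))) =o[l]
      (eta s₀ u₀ k₀ (fun q : R => q.1.1.1)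
      (fun q : R => q.1.2.2.1) (fun q : R => q.1.2.1) (fun q : R => q.1.2.2.2)) := by
    have h1 := (hasFDerivAt_iff_isLittleO.mp hg).comp_tendsto ta
    have e : (fun q : R => (q.1.1.1 + (q.1.2.1⁻¹ - 1) • q.1.2.2.1) - a₀) = fun q : R =>
        (q.1.1.1 - s₀) + ((q.1.2.1⁻¹ - 1) • q.1.2.2.1 - (k₀⁻¹ - 1) • u₀) := by
      funext q; rw [← ea]; abel
    have h2 : ((fun x' => x' - a₀) ∘ fun q : R => q.1.1.1 + (q.1.2.1⁻¹ - 1) • q.1.2.2.1) =O[l]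
        (eta s₀ u₀ k₀ (fun q : R => q.1.1.1)
        (fun q : R => q.1.2.2.1) (fun q : R => q.1.2.1) (fun q : R => q.1.2.2.2)) := by
      change (fun q : R => (q.1.1.1 + (q.1.2.1⁻¹ - 1) • q.1.2.2.1) - a₀) =O[l] _
      rw [e]; exact hOs.add hOv
    refine (h1.trans_isBigO h2).congr_left fun q => ?_
    change g (q.1.1.1 + (q.1.2.1⁻¹ - 1) • q.1.2.2.1) - g a₀ -
      L ((q.1.1.1 + (q.1.2.1⁻¹ - 1) • q.1.2.2.1) - a₀) = _
    rw [hg0, sub_zero, congrFun e q]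
  have hb : (fun q : R => g' (q.1.1.1 - (q.1.2.1⁻¹ - 1) • q.1.2.2.1) -
      L' ((q.1.1.1 - s₀) - ((q.1.2.1⁻¹ - 1) • q.1.2.2.1 - (k₀⁻¹ - 1) • u₀))) =o[l]
      (eta s₀ u₀ k₀ (fun q : R => q.1.1.1)
      (fun q : R => q.1.2.2.1) (fun q : R => q.1.2.1) (fun q : R => q.1.2.2.2)) := by
    have h1 := (hasFDerivAt_iff_isLittleO.mp hg').comp_tendsto tb
    have e : (fun q : R => (q.1.1.1 - (q.1.2.1⁻¹ - 1) • q.1.2.2.1) - b₀) = fun q : R =>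
        (q.1.1.1 - s₀) - ((q.1.2.1⁻¹ - 1) • q.1.2.2.1 - (k₀⁻¹ - 1) • u₀) := by
      funext q; rw [← eb]; abel
    have h2 : ((fun x' => x' - b₀) ∘ fun q : R => q.1.1.1 - (q.1.2.1⁻¹ - 1) • q.1.2.2.1) =O[l]
        (eta s₀ u₀ k₀ (fun q : R => q.1.1.1)
        (fun q : R => q.1.2.2.1) (fun q : R => q.1.2.1) (fun q : R => q.1.2.2.2)) := by
      change (fun q : R => (q.1.1.1 - (q.1.2.1⁻¹ - 1) • q.1.2.2.1) - b₀) =O[l] _
      rw [e]; exact hOs.sub hOv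
    refine (h1.trans_isBigO h2).congr_left fun q => ?_
    change g' (q.1.1.1 - (q.1.2.1⁻¹ - 1) • q.1.2.2.1) - g' b₀ -
      L' ((q.1.1.1 - (q.1.2.1⁻¹ - 1) • q.1.2.2.1) - b₀) = _
    rw [hg0', sub_zero, congrFun e q]
  have main := sheet_isLittleO ts tk tu tN hk0 hkp hu₀ hu1 hN0 th L L' ha hb
  rw [isLittleO_iff]
  intro c hc
  have h1 := main.def hc
  rw [Filter.eventually_comap] at h1
  rw [nhds_prod_eq, Filter.eventually_prod_iff] at h1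
  obtain ⟨p₁, hp₁, p₂, hp₂, h2⟩ := h1
  filter_upwards [hp₁, hf {q | p₂ q} hp₂] with z hz hz'
  obtain ⟨k, u, N, hm, r1, r2, r3, r4, r5⟩ := hz'
  have h3 := h2 hz hm (⟨(z, k, u, N), r1, r2, r3, r4, r5⟩ : R) rfl
  have e1 : ((z.1 - s₀, BB u₀ k₀ (fun q : R => q.1.2.2.1) (fun q : R => q.1.2.1)
      (fun q : R => q.1.2.2.2) (⟨(z, k, u, N), r1, r2, r3, r4, r5⟩ : R)) :
      V × (V →L[ℝ] V)) = z - z₀ := by
    ext1
    · rfl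
    · change k • ten u u + N - k₀ • ten u₀ u₀ = z.2 - k₀ • ten u₀ u₀
      rw [r4]
  simp only at h3
  rw [e1, ← r5] at h3
  change ‖f z - 0 - Λ (z - z₀)‖ ≤ c * ‖z - z₀‖
  rw [sub_zero, hΛ]
  exact h3

end PairDer

end Vale.Agent.P263.KJ
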