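import Mathlib.Analysis.Normed.Module.Basic
import Mathlib.Analysis.Normed.Group.Continuity
import Mathlib.Topology.Algebra.GroupWithZero

/-!
# P263, block KJ: radial functions

* `Kr r = 1 + r` (`0 ≤ r`), `1/(1 - r)` (`r ≤ 0`), inverse `Ki`;
* `sq v = v/(1+|v|)`, inverse `usq v = v/(1-|v|)` on the open unit ball;
* `es s v = (1/4 + 3/4 s) v/(1 + (1-s)|v|)`, inverse `ues s`.
-/

open Filter Topology

namespace Vale.Agent.P263.KJ

/-- the radial coordinate: `1 + r` for `0 ≤ r`, `1/(1-r)` for `r ≤ 0` -/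
noncomputable def Kr (r : ℝ) : ℝ := (1 + max r 0) * (1 + max (-r) 0)⁻¹

/-- the inverse of `Kr` -/
noncomputable def Ki (k : ℝ) : ℝ := max (k - 1) 0 - max (k⁻¹ - 1) 0

theorem Kr_of_nonneg {r : ℝ} (h : 0 ≤ r) : Kr r = 1 + r := by
  unfold Kr; rw [max_eq_left h, max_eq_right (by linarith)]; simp

theorem Kr_of_nonpos {r : ℝ} (h : r ≤ 0) : Kr r = (1 - r)⁻¹ := by
  unfold Kr; rw [max_eq_right h, max_eq_left (by linarith)]; simp [sub_eq_add_neg]

theorem Kr_pos (r : ℝ) : 0 < Kr r := by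
  unfold Kr
  have h1 : 0 ≤ max r 0 := le_max_right _ _
  have h2 : 0 ≤ max (-r) 0 := le_max_right _ _
  positivity

@[fun_prop]
theorem continuous_Kr : Continuous Kr := by
  unfold Kr
  refine Continuous.mul (by fun_prop) (Continuous.inv₀ (by fun_prop) fun r => ?_)
  have h2 : 0 ≤ max (-r) 0 := le_max_right _ _
  positivity

theorem Ki_Kr (r : ℝ) : Ki (Kr r) = r := by
  rcases le_total 0 r with h | h
  · rw [Kr_of_nonneg h, Ki, add_sub_cancel_left, max_eq_left h, max_eq_right, sub_zero]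
    rw [sub_nonpos]
    exact inv_le_one_of_one_le₀ (by linarith)
  · have h1 : (1 - r)⁻¹ ≤ 1 := inv_le_one_of_one_le₀ (by linarith)
    rw [Kr_of_nonpos h, Ki, inv_inv, max_eq_right (by linarith), max_eq_left (by linarith)]
    ring

theorem Kr_Ki {k : ℝ} (hk : 0 < k) : Kr (Ki k) = k := by
  rcases le_total 1 k with h | h
  · have h1 : k⁻¹ ≤ 1 := inv_le_one_of_one_le₀ h
    have h2 : Ki k = k - 1 := by
      rw [Ki, max_eq_left (by linarith), max_eq_right (by linarith), sub_zero]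
    rw [h2, Kr_of_nonneg (by linarith)]; ring
  · have h1 : 1 ≤ k⁻¹ := (one_le_inv₀ hk).mpr h
    have h2 : Ki k = 1 - k⁻¹ := by
      rw [Ki, max_eq_right (by linarith), max_eq_left (by linarith)]; ring
    rw [h2, Kr_of_nonpos (by linarith)]
    simp

theorem continuousAt_Ki {k : ℝ} (hk : k ≠ 0) : ContinuousAt Ki k := by
  unfold Ki
  exact ((continuousAt_id.sub continuousAt_const).max continuousAt_const).sub
    (((continuousAt_inv₀ hk).sub continuousAt_const).max continuousAt_const)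

section sq

variable {E : Type*} [NormedAddCommGroup E] [NormedSpace ℝ E]

/-- `v ↦ v/(1+|v|)` -/
noncomputable def sq (v : E) : E := (1 + ‖v‖)⁻¹ • v

/-- `v ↦ v/(1-|v|)` -/
noncomputable def usq (v : E) : E := (1 - ‖v‖)⁻¹ • v

theorem norm_sq (v : E) : ‖sq v‖ = ‖v‖ / (1 + ‖v‖) := by
  rw [sq, norm_smul, norm_inv, Real.norm_of_nonneg (by positivity)]; field_simp

theorem norm_sq_lt (v : E) : ‖sq v‖ < 1 := by
  rw [norm_sq, div_lt_one (by positivity)]; linarith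

@[fun_prop]
theorem continuous_sq : Continuous (sq : E → E) := by
  unfold sq
  refine Continuous.smul (Continuous.inv₀ (by fun_prop) fun v => ?_) continuous_id
  positivity

theorem usq_sq (v : E) : usq (sq v) = v := by
  have h : (0 : ℝ) < 1 + ‖v‖ := by positivity
  rw [usq, norm_sq, sq, smul_smul, one_sub_div h.ne', add_sub_cancel_right, ← mul_inv,
    one_div_mul_cancel h.ne', inv_one, one_smul]

theorem sq_usq {v : E} (hv : ‖v‖ < 1) : sq (usq v) = v := by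
  have h : (0 : ℝ) < 1 - ‖v‖ := by linarith
  have h1 : ‖usq v‖ = ‖v‖ / (1 - ‖v‖) := by
    rw [usq, norm_smul, norm_inv, Real.norm_of_nonneg h.le]; field_simp
  rw [sq, h1, usq, smul_smul]
  have h2 : 1 + ‖v‖ / (1 - ‖v‖) = (1 - ‖v‖)⁻¹ := by field_simp; ring
  rw [h2, inv_inv, mul_inv_cancel₀ h.ne', one_smul]

theorem continuousAt_usq {v : E} (hv : ‖v‖ < 1) : ContinuousAt (usq : E → E) v := by
  unfold usq
  refine ContinuousAt.smul (ContinuousAt.inv₀ (by fun_prop) ?_) continuousAt_id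
  have : (0 : ℝ) < 1 - ‖v‖ := by linarith
  exact this.ne'

theorem sq_neg (v : E) : sq (-v) = -sq v := by
  rw [sq, sq, norm_neg, smul_neg]

theorem usq_neg (v : E) : usq (-v) = -usq v := by
  rw [usq, usq, norm_neg, smul_neg]

/-- `v ↦ a v/(1 + (1-s)|v|)`, `a = 1/4 + 3/4 s` -/
noncomputable def es (s : ℝ) (v : E) : E := ((1 / 4 + 3 / 4 * s) * (1 + (1 - s) * ‖v‖)⁻¹) • v

/-- the inverse of `es s` -/
noncomputable def ues (s : ℝ) (v : E) : E := ((1 / 4 + 3 / 4 * s) - (1 - s) * ‖v‖)⁻¹ • v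

theorem es_zero (v : E) : es 0 v = (1 / 4 : ℝ) • sq v := by
  unfold es sq; rw [smul_smul]; simp

theorem es_one (v : E) : es 1 v = v := by
  unfold es; norm_num

variable {s : ℝ} (h0 : 0 ≤ s) (h1 : s ≤ 1)

include h0 h1

theorem norm_es (v : E) : ‖es s v‖ = (1 / 4 + 3 / 4 * s) * (1 + (1 - s) * ‖v‖)⁻¹ * ‖v‖ := by
  have h2 : 0 ≤ (1 - s) * ‖v‖ := mul_nonneg (by linarith) (norm_nonneg _)
  rw [es, norm_smul, Real.norm_of_nonneg (by positivity)]

theorem es_lt (v : E) : (1 - s) * ‖es s v‖ < 1 / 4 + 3 / 4 * s := by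
  have h2 : 0 ≤ (1 - s) * ‖v‖ := mul_nonneg (by linarith) (norm_nonneg _)
  have h3 : (1 - s) * ‖es s v‖ =
      (1 / 4 + 3 / 4 * s) * ((1 + (1 - s) * ‖v‖)⁻¹ * ((1 - s) * ‖v‖)) := by
    rw [norm_es h0 h1]; ring
  rw [h3]
  have h4 : (1 + (1 - s) * ‖v‖)⁻¹ * ((1 - s) * ‖v‖) < 1 := by
    rw [inv_mul_lt_iff₀ (by positivity)]; linarith
  have h5 : 0 < 1 / 4 + 3 / 4 * s := by positivity
  nlinarith

theorem ues_es (v : E) : ues s (es s v) = v := by
  have h2 : 0 ≤ (1 - s) * ‖v‖ := mul_nonneg (by linarith) (norm_nonneg _)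
  have h5 : 0 < 1 / 4 + 3 / 4 * s := by positivity
  have h6 : 0 < 1 + (1 - s) * ‖v‖ := by positivity
  rw [ues, norm_es h0 h1, es, smul_smul]
  have h7 : (1 / 4 + 3 / 4 * s) - (1 - s) * ((1 / 4 + 3 / 4 * s) * (1 + (1 - s) * ‖v‖)⁻¹ * ‖v‖)
      = (1 / 4 + 3 / 4 * s) * (1 + (1 - s) * ‖v‖)⁻¹ := by
    field_simp; ring
  rw [h7, inv_mul_cancel₀ (by positivity), one_smul]

omit h1 in
theorem es_ues {v : E} (hv : (1 - s) * ‖v‖ < 1 / 4 + 3 / 4 * s) : es s (ues s v) = v := by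
  have h5 : 0 < 1 / 4 + 3 / 4 * s := by positivity
  have h6 : 0 < (1 / 4 + 3 / 4 * s) - (1 - s) * ‖v‖ := by linarith
  have h7 : ‖ues s v‖ = ((1 / 4 + 3 / 4 * s) - (1 - s) * ‖v‖)⁻¹ * ‖v‖ := by
    rw [ues, norm_smul, norm_inv, Real.norm_of_nonneg h6.le]
  rw [es, h7, ues, smul_smul]
  have h8 : (1 / 4 + 3 / 4 * s) * (1 + (1 - s) * (((1 / 4 + 3 / 4 * s) - (1 - s) * ‖v‖)⁻¹ * ‖v‖))⁻¹
      = ((1 / 4 + 3 / 4 * s) - (1 - s) * ‖v‖) := by
    have h9 : 1 + (1 - s) * (((1 / 4 + 3 / 4 * s) - (1 - s) * ‖v‖)⁻¹ * ‖v‖) =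
        (1 / 4 + 3 / 4 * s) * ((1 / 4 + 3 / 4 * s) - (1 - s) * ‖v‖)⁻¹ := by
      generalize (1 / 4 + 3 / 4 * s) = a at h6 ⊢
      have h10 : (1 - s) * ((a - (1 - s) * ‖v‖)⁻¹ * ‖v‖) =
          ((1 - s) * ‖v‖) * (a - (1 - s) * ‖v‖)⁻¹ := by ring
      rw [h10]
      generalize (1 - s) * ‖v‖ = b at h6 ⊢
      field_simp
      ring
    rw [h9, mul_inv, inv_inv, ← mul_assoc, mul_inv_cancel₀ h5.ne', one_mul]
  rw [h8, mul_inv_cancel₀ h6.ne', one_smul]

end sq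

end Vale.Agent.P263.KJ
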