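import Vale.Agent.P263.KJ.Ten
import Mathlib.Topology.MetricSpace.Contracting

/-!
# P263, literal `J`: the rotated slices

`V` a finite dimensional real inner product space, `ten w u = w uᵀ`.  For `t ∈ [0,1]` the slices
`(k, u, N, x) ↦ (tA, tz) = (((1-t)k + t) u uᵀ + N - t x uᵀ, ((1-t) + t k) u + (1-t) x)`,
`k > 0`, `|u| = 1`, `N u = 0`, `|N| < ((1-t)k + t)/4`, `|x| < 1/4`, are disjoint and open.
-/

open Filter Topology
open scoped RealInnerProductSpace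

namespace Vale.Agent.P263.KJ

set_option linter.unusedSectionVars false

variable {V : Type*} [NormedAddCommGroup V] [InnerProductSpace ℝ V]

theorem tA_apply (t k : ℝ) (u x : V) (N : V →L[ℝ] V) (v : V) :
    tA t k u x N v = (((1 - t) * k + t) * ⟪u, v⟫) • u + N v - (t * ⟪u, v⟫) • x := by
  simp [tA, ten_apply, smul_smul]

/-- points on two rays are at least as far as on the unit sphere -/
theorem mul_norm_unit_sub_le {a b : V} (ha : ‖a‖ = 1) (hb : ‖b‖ = 1) {r s m : ℝ} (hm : 0 ≤ m)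
    (hr : m ≤ r) (hs : m ≤ s) : m * ‖a - b‖ ≤ ‖r • a - s • b‖ := by
  have h1 : ‖r • a - s • b‖ ^ 2 = r ^ 2 + s ^ 2 - 2 * (r * s) * ⟪a, b⟫ := by
    rw [norm_sub_sq_real, norm_smul, norm_smul, ha, hb, real_inner_smul_left,
      real_inner_smul_right, Real.norm_eq_abs, Real.norm_eq_abs, mul_one, mul_one, sq_abs, sq_abs]
    ring
  have h2 : ‖a - b‖ ^ 2 = 2 - 2 * ⟪a, b⟫ := by
    rw [norm_sub_sq_real, ha, hb]; ring
  have h3 : ⟪a, b⟫ ≤ 1 := by
    have := real_inner_le_norm a b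
    rwa [ha, hb, mul_one] at this
  have h4 : m * m ≤ r * s := mul_le_mul hr hs hm (hm.trans hr)
  refine le_of_sq_le_sq ?_ (norm_nonneg _)
  rw [mul_pow, h1, h2]
  nlinarith [sq_nonneg (r - s), mul_le_mul_of_nonneg_right h4 (sub_nonneg.mpr h3)]

section fixed

variable [CompleteSpace V]

/-- A unit vector `u` with `L u + b` a positive multiple of `u` persists under perturbation. -/
theorem eventually_exists_unit {u₀ : V} (hu₀ : ‖u₀‖ = 1) {L₀ : V →L[ℝ] V} {b₀ : V}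
    {τ₀ M q : ℝ} (h0 : L₀ u₀ + b₀ = τ₀ • u₀) (hq0 : 0 ≤ q) (hq : q < τ₀) (hM : 0 ≤ M)
    (hL : ∀ d, ‖L₀ d‖ ≤ M * |⟪u₀, d⟫| + q * ‖d‖) {δ : ℝ} (hδ : 0 < δ) :
    ∀ᶠ p : (V →L[ℝ] V) × V in 𝓝 (L₀, b₀),
      ∃ u : V, ‖u‖ = 1 ∧ ‖u - u₀‖ < δ ∧ ∃ τ : ℝ, 0 < τ ∧ p.1 u + p.2 = τ • u := by
  set g : ℝ := (τ₀ - q) / 3 with hg
  have hg0 : 0 < g := by rw [hg]; linarith
  set q₁ : ℝ := q + g with hq₁
  set m : ℝ := q + 2 * g with hm
  have hm0 : 0 < m := by rw [hm]; linarith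
  have hmτ : τ₀ = m + g := by rw [hm, hg]; ring
  set δ₁ : ℝ := min (δ / 2) (min (g / (2 * (M + 1))) (g / (2 * (q₁ + 1)))) with hδ₁
  have hq₁0 : 0 < q₁ := by rw [hq₁]; linarith
  have hd0 : 0 < δ₁ := by
    refine lt_min (by linarith) (lt_min ?_ ?_) <;> positivity
  have hd1 : δ₁ < δ := lt_of_le_of_lt (min_le_left _ _) (by linarith)
  have hd2 : M * δ₁ ≤ g / 2 := by
    have h : δ₁ ≤ g / (2 * (M + 1)) := (min_le_right _ _).trans (min_le_left _ _)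
    have h' : δ₁ * (2 * (M + 1)) ≤ g := (le_div_iff₀ (by positivity)).mp h
    nlinarith
  have hd3 : q₁ * δ₁ ≤ g / 2 := by
    have h : δ₁ ≤ g / (2 * (q₁ + 1)) := (min_le_right _ _).trans (min_le_right _ _)
    have h' : δ₁ * (2 * (q₁ + 1)) ≤ g := (le_div_iff₀ (by positivity)).mp h
    nlinarith
  set η : ℝ := min (g / 4) (g * δ₁ / 2) with hη
  have hη0 : 0 < η := lt_min (by linarith) (by positivity)
  have hη1 : η ≤ g / 4 := min_le_left _ _
  have hη2 : η ≤ g * δ₁ / 2 := min_le_right _ _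
  have hev : ∀ᶠ p : (V →L[ℝ] V) × V in 𝓝 (L₀, b₀), ‖p.1 - L₀‖ < η ∧ ‖p.2 - b₀‖ < η := by
    have h1 : Tendsto (fun p : (V →L[ℝ] V) × V => ‖p.1 - L₀‖) (𝓝 (L₀, b₀)) (𝓝 0) := by
      have : Continuous fun p : (V →L[ℝ] V) × V => ‖p.1 - L₀‖ := by fun_prop
      simpa using this.tendsto (L₀, b₀)
    have h2 : Tendsto (fun p : (V →L[ℝ] V) × V => ‖p.2 - b₀‖) (𝓝 (L₀, b₀)) (𝓝 0) := by
      have : Continuous fun p : (V →L[ℝ] V) × V => ‖p.2 - b₀‖ := by fun_prop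
      simpa using this.tendsto (L₀, b₀)
    exact (h1.eventually (gt_mem_nhds hη0)).and (h2.eventually (gt_mem_nhds hη0))
  filter_upwards [hev] with p hp
  obtain ⟨hp1, hp2⟩ := hp
  set L := p.1
  set b := p.2
  -- the map
  let G : V → V := fun v => L v + b
  have hGG : ∀ v : V, ‖v‖ = 1 → ‖G v - (L₀ v + b₀)‖ ≤ 2 * η := by
    intro v hv
    have h : G v - (L₀ v + b₀) = (L - L₀) v + (b - b₀) := by
      simp only [G, sub_apply]; abel
    rw [h]
    calc ‖(L - L₀) v + (b - b₀)‖ ≤ ‖(L - L₀) v‖ + ‖b - b₀‖ := norm_add_le _ _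
      _ ≤ ‖L - L₀‖ * ‖v‖ + ‖b - b₀‖ := by gcongr; exact ContinuousLinearMap.le_opNorm _ _
      _ ≤ 2 * η := by rw [hv, mul_one]; linarith
  let S : Set V := Metric.sphere (0 : V) 1 ∩ Metric.closedBall u₀ δ₁
  have hSc : IsComplete S :=
    (Metric.isClosed_sphere.inter Metric.isClosed_closedBall).isComplete
  have hS : ∀ v, v ∈ S ↔ ‖v‖ = 1 ∧ ‖v - u₀‖ ≤ δ₁ := by
    intro v
    simp only [S, Set.mem_inter_iff, mem_sphere_zero_iff_norm, mem_closedBall_iff_norm]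
  have hu₀S : u₀ ∈ S := (hS _).mpr ⟨hu₀, by simpa using hd0.le⟩
  have hinner : ∀ v w, v ∈ S → w ∈ S → |⟪u₀, v - w⟫| ≤ δ₁ * ‖v - w‖ := by
    intro v w hv hw
    obtain ⟨hv1, hv2⟩ := (hS v).mp hv
    obtain ⟨hw1, hw2⟩ := (hS w).mp hw
    have h1 : ⟪v + w, v - w⟫ = 0 := by
      rw [inner_add_left, inner_sub_right, inner_sub_right, real_inner_self_eq_norm_sq,
        real_inner_self_eq_norm_sq, hv1, hw1, real_inner_comm v w]
      ring
    have h2 : ⟪u₀, v - w⟫ = ⟪u₀ - (2 : ℝ)⁻¹ • (v + w), v - w⟫ := by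
      rw [inner_sub_left, real_inner_smul_left, h1, mul_zero, sub_zero]
    have h3 : ‖u₀ - (2 : ℝ)⁻¹ • (v + w)‖ ≤ δ₁ := by
      have h4 : u₀ - (2 : ℝ)⁻¹ • (v + w) = (2 : ℝ)⁻¹ • ((u₀ - v) + (u₀ - w)) := by
        rw [show (u₀ - v) + (u₀ - w) = (2 : ℝ) • u₀ - (v + w) by rw [two_smul]; abel, smul_sub,
          smul_smul, inv_mul_cancel₀ two_ne_zero, one_smul]
      rw [h4, norm_smul, norm_inv, Real.norm_two]
      have h5 := norm_add_le (u₀ - v) (u₀ - w)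
      rw [norm_sub_rev u₀ v, norm_sub_rev u₀ w] at h5
      linarith
    rw [h2]
    exact (abs_real_inner_le_norm _ _).trans (mul_le_mul_of_nonneg_right h3 (norm_nonneg _))
  have hlip : ∀ v w, v ∈ S → w ∈ S → ‖G v - G w‖ ≤ q₁ * ‖v - w‖ := by
    intro v w hv hw
    have h : G v - G w = (L - L₀) (v - w) + L₀ (v - w) := by
      simp only [G, sub_apply, map_sub]; abel
    rw [h]
    have h1 : ‖(L - L₀) (v - w)‖ ≤ η * ‖v - w‖ :=
      (ContinuousLinearMap.le_opNorm _ _).trans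
        (mul_le_mul_of_nonneg_right hp1.le (norm_nonneg _))
    have h2 := hL (v - w)
    have h3 := mul_le_mul_of_nonneg_left (hinner v w hv hw) hM
    have h4 : M * (δ₁ * ‖v - w‖) ≤ g / 2 * ‖v - w‖ := by
      rw [← mul_assoc]; exact mul_le_mul_of_nonneg_right hd2 (norm_nonneg _)
    have h5 : η * ‖v - w‖ ≤ g / 4 * ‖v - w‖ := mul_le_mul_of_nonneg_right hη1 (norm_nonneg _)
    have h6 := norm_nonneg (v - w)
    calc ‖(L - L₀) (v - w) + L₀ (v - w)‖ ≤ ‖(L - L₀) (v - w)‖ + ‖L₀ (v - w)‖ := norm_add_le _ _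
      _ ≤ q₁ * ‖v - w‖ := by rw [hq₁]; nlinarith
  have hbig : ∀ v ∈ S, m ≤ ‖G v‖ := by
    intro v hv
    have h1 := hlip v u₀ hv hu₀S
    have h2 := mul_le_mul_of_nonneg_left ((hS v).mp hv).2 hq₁0.le
    have h3 := hGG u₀ hu₀
    rw [h0] at h3
    have h4 : ‖τ₀ • u₀‖ = τ₀ := by
      rw [norm_smul, hu₀, mul_one, Real.norm_of_nonneg (by linarith)]
    have h5 : ‖τ₀ • u₀‖ ≤ ‖G v‖ + ‖G v - G u₀‖ + ‖G u₀ - τ₀ • u₀‖ := by
      have h6 : τ₀ • u₀ = G v - (G v - G u₀) - (G u₀ - τ₀ • u₀) := by abel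
      calc ‖τ₀ • u₀‖ = ‖G v - (G v - G u₀) - (G u₀ - τ₀ • u₀)‖ := by rw [← h6]
        _ ≤ ‖G v - (G v - G u₀)‖ + ‖G u₀ - τ₀ • u₀‖ := norm_sub_le _ _
        _ ≤ ‖G v‖ + ‖G v - G u₀‖ + ‖G u₀ - τ₀ • u₀‖ := by gcongr; exact norm_sub_le _ _
    linarith
  let f : V → V := fun v => ‖G v‖⁻¹ • G v
  have hf1 : ∀ v ∈ S, ‖f v‖ = 1 := by
    intro v hv
    have h : 0 < ‖G v‖ := hm0.trans_le (hbig v hv)
    simp only [f]
    rw [norm_smul, norm_inv, norm_norm, inv_mul_cancel₀ h.ne']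
  have hf2 : ∀ v ∈ S, ‖G v‖ • f v = G v := by
    intro v hv
    have h : 0 < ‖G v‖ := hm0.trans_le (hbig v hv)
    simp only [f]
    rw [smul_smul, mul_inv_cancel₀ h.ne', one_smul]
  have hf3 : ∀ v w, v ∈ S → w ∈ S → m * ‖f v - f w‖ ≤ q₁ * ‖v - w‖ := by
    intro v w hv hw
    have h := mul_norm_unit_sub_le (hf1 v hv) (hf1 w hw) hm0.le (hbig v hv) (hbig w hw)
    rw [hf2 v hv, hf2 w hw] at h
    exact h.trans (hlip v w hv hw)
  have hf4 : m * ‖f u₀ - u₀‖ ≤ 2 * η := by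
    have h := mul_norm_unit_sub_le (hf1 u₀ hu₀S) hu₀ hm0.le (hbig u₀ hu₀S)
      (show m ≤ τ₀ by linarith)
    rw [hf2 u₀ hu₀S, ← h0] at h
    exact h.trans (hGG u₀ hu₀)
  have hmaps : Set.MapsTo f S S := by
    intro v hv
    refine (hS _).mpr ⟨hf1 v hv, ?_⟩
    have h1 := hf3 v u₀ hv hu₀S
    have h2 := mul_le_mul_of_nonneg_left ((hS v).mp hv).2 hq₁0.le
    have h3 : ‖f v - u₀‖ ≤ ‖f v - f u₀‖ + ‖f u₀ - u₀‖ := by
      have : f v - u₀ = (f v - f u₀) + (f u₀ - u₀) := by abel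
      rw [this]; exact norm_add_le _ _
    have h4 : m * ‖f v - u₀‖ ≤ m * δ₁ := by
      have h5 := mul_le_mul_of_nonneg_left h3 hm0.le
      have h6 : m = q₁ + g := by rw [hm, hq₁]; ring
      rw [mul_add] at h5
      calc m * ‖f v - u₀‖ ≤ q₁ * δ₁ + g * δ₁ := by linarith
        _ = m * δ₁ := by rw [h6]; ring
    exact le_of_mul_le_mul_left h4 hm0
  have hK : q₁ / m < 1 := by
    rw [div_lt_one hm0, hm, hq₁]; linarith
  have hcontr : ContractingWith (Real.toNNReal (q₁ / m)) (hmaps.restrict f S S) := by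
    refine ⟨?_, ?_⟩
    · rw [← NNReal.coe_lt_coe, Real.coe_toNNReal _ (by positivity)]
      exact_mod_cast hK
    · refine LipschitzWith.of_dist_le_mul fun v w => ?_
      rw [Real.coe_toNNReal _ (by positivity)]
      have h := hf3 v w v.2 w.2
      rw [Subtype.dist_eq, Subtype.dist_eq, dist_eq_norm, dist_eq_norm, div_mul_eq_mul_div,
        le_div_iff₀ hm0, mul_comm]
      exact h
  obtain ⟨u, huS, hfix, -⟩ := hcontr.exists_fixedPoint' hSc hmaps hu₀S (edist_ne_top _ _)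
  refine ⟨u, ((hS u).mp huS).1, ((hS u).mp huS).2.trans_lt hd1, ‖G u‖,
    hm0.trans_le (hbig u huS), ?_⟩
  have h := hf2 u huS
  rw [hfix.eq] at h
  exact h.symm

end fixed

section inverse

/-- the denominator `(1-t)² + t²` -/
noncomputable def dn (t : ℝ) : ℝ := (1 - t) ^ 2 + t ^ 2

theorem dn_pos (t : ℝ) : 0 < dn t := by
  unfold dn
  nlinarith [sq_nonneg (1 - t), sq_nonneg t, sq_nonneg (1 - 2 * t)]

/-- the radius recovered from `(t, A, z, u)` -/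
noncomputable def ik (t : ℝ) (A : V →L[ℝ] V) (z u : V) : ℝ :=
  (⟪(1 - t) • A u + t • z, u⟫ - 2 * (1 - t) * t) / dn t

/-- the vector `x` recovered from `(t, A, z, u)` -/
noncomputable def ix (t : ℝ) (A : V →L[ℝ] V) (z u : V) : V :=
  (dn t)⁻¹ • ((1 - t) • z - t • A u - ((1 - t) ^ 2 - t ^ 2) • u)

/-- the operator `N` recovered from `(t, A, z, u)` -/
noncomputable def iN (t : ℝ) (A : V →L[ℝ] V) (z u : V) : V →L[ℝ] V :=
  A - ((1 - t) * ik t A z u + t) • ten u u + t • ten (ix t A z u) u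

theorem tA_inv (t : ℝ) (A : V →L[ℝ] V) (z u : V) :
    tA t (ik t A z u) u (ix t A z u) (iN t A z u) = A := by
  unfold tA iN
  abel

theorem inner_of_eq {t τ : ℝ} {A : V →L[ℝ] V} {z u : V} (hu : ‖u‖ = 1)
    (h : (1 - t) • A u + t • z = τ • u) : ⟪(1 - t) • A u + t • z, u⟫ = τ := by
  rw [h, real_inner_smul_left, real_inner_self_eq_norm_sq, hu]
  ring

theorem dn_mul_ik {t τ : ℝ} {A : V →L[ℝ] V} {z u : V} (hu : ‖u‖ = 1)
    (h : (1 - t) • A u + t • z = τ • u) : dn t * ik t A z u = τ - 2 * (1 - t) * t := by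
  unfold ik
  rw [inner_of_eq hu h, mul_div_cancel₀ _ (dn_pos t).ne']

theorem dn_smul_ix (t : ℝ) (A : V →L[ℝ] V) (z u : V) :
    dn t • ix t A z u = (1 - t) • z - t • A u - ((1 - t) ^ 2 - t ^ 2) • u := by
  unfold ix
  rw [smul_smul, mul_inv_cancel₀ (dn_pos t).ne', one_smul]

theorem tz_inv {t τ : ℝ} {A : V →L[ℝ] V} {z u : V} (hu : ‖u‖ = 1)
    (h : (1 - t) • A u + t • z = τ • u) : tz t (ik t A z u) u (ix t A z u) = z := by
  have hd := (dn_pos t).ne'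
  have h1 := dn_mul_ik hu h
  have h2 := dn_smul_ix t A z u
  have h3 : dn t • tz t (ik t A z u) u (ix t A z u) = dn t • z := by
    have e1 : dn t • tz t (ik t A z u) u (ix t A z u) =
        ((1 - t) * dn t + t * (dn t * ik t A z u)) • u + (1 - t) • (dn t • ix t A z u) := by
      unfold tz
      module
    rw [e1, h1, h2]
    have e2 : τ • u = (1 - t) • A u + t • z := h.symm
    have e3 : ((1 - t) * dn t + t * (τ - 2 * (1 - t) * t)) • u =
        ((1 - t) * dn t - 2 * (1 - t) * t ^ 2) • u + t • (τ • u) := by module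
    rw [e3, e2]
    unfold dn
    module
  exact (smul_right_injective V hd) h3

theorem iN_apply {t τ : ℝ} {A : V →L[ℝ] V} {z u : V} (hu : ‖u‖ = 1)
    (h : (1 - t) • A u + t • z = τ • u) : iN t A z u u = 0 := by
  have hd := (dn_pos t).ne'
  have h1 := dn_mul_ik hu h
  have h2 := dn_smul_ix t A z u
  have hin : ⟪u, u⟫ = 1 := by rw [real_inner_self_eq_norm_sq, hu]; norm_num
  have h3 : dn t • iN t A z u u = dn t • (0 : V) := by
    have e1 : dn t • iN t A z u u =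
        dn t • A u - ((1 - t) * (dn t * ik t A z u) + t * dn t) • u +
          t • (dn t • ix t A z u) := by
      unfold iN
      simp only [add_apply, sub_apply, smul_apply,
        ten_apply, hin, one_smul]
      module
    rw [e1, h1, h2]
    have e2 : τ • u = (1 - t) • A u + t • z := h.symm
    have e3 : ((1 - t) * (τ - 2 * (1 - t) * t) + t * dn t) • u =
        (t * dn t - 2 * (1 - t) ^ 2 * t) • u + (1 - t) • (τ • u) := by module
    rw [e3, e2]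
    unfold dn
    module
  exact (smul_right_injective V hd) h3

theorem continuous_inverse :
    Continuous fun p : (ℝ × (V →L[ℝ] V) × V) × V =>
      ((ik p.1.1 p.1.2.1 p.1.2.2 p.2, p.2, iN p.1.1 p.1.2.1 p.1.2.2 p.2,
        ix p.1.1 p.1.2.1 p.1.2.2 p.2) : ℝ × V × (V →L[ℝ] V) × V) := by
  have hd : Continuous fun p : (ℝ × (V →L[ℝ] V) × V) × V => dn p.1.1 := by
    unfold dn; fun_prop
  have hk : Continuous fun p : (ℝ × (V →L[ℝ] V) × V) × V =>
      ik p.1.1 p.1.2.1 p.1.2.2 p.2 := by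
    unfold ik
    refine Continuous.div (by fun_prop) hd fun p => (dn_pos _).ne'
  have hx : Continuous fun p : (ℝ × (V →L[ℝ] V) × V) × V =>
      ix p.1.1 p.1.2.1 p.1.2.2 p.2 := by
    unfold ix
    refine Continuous.smul (hd.inv₀ fun p => (dn_pos _).ne') (by fun_prop)
  have h1 : Continuous fun p : (ℝ × (V →L[ℝ] V) × V) × V => ten p.2 p.2 :=
    Continuous.ten continuous_snd continuous_snd
  have h2 : Continuous fun p : (ℝ × (V →L[ℝ] V) × V) × V =>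
      ten (ix p.1.1 p.1.2.1 p.1.2.2 p.2) p.2 :=
    Continuous.ten hx continuous_snd
  have hN : Continuous fun p : (ℝ × (V →L[ℝ] V) × V) × V =>
      iN p.1.1 p.1.2.1 p.1.2.2 p.2 := by
    unfold iN
    fun_prop
  exact hk.prodMk (continuous_snd.prodMk (hN.prodMk hx))

variable {t k : ℝ} {u x : V} {N : V →L[ℝ] V}

theorem tA_self (hu : ‖u‖ = 1) (hN : N u = 0) :
    tA t k u x N u = ((1 - t) * k + t) • u - t • x := by
  have hin : ⟪u, u⟫ = 1 := by rw [real_inner_self_eq_norm_sq, hu]; norm_num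
  rw [tA_apply, hin, hN]
  simp

theorem slice_eq (hu : ‖u‖ = 1) (hN : N u = 0) :
    (1 - t) • tA t k u x N u + t • tz t k u x =
      ((1 - t) * ((1 - t) * k + t) + t * ((1 - t) + t * k)) • u := by
  rw [tA_self hu hN]
  unfold tz
  module

theorem ik_slice (hu : ‖u‖ = 1) (hN : N u = 0) : ik t (tA t k u x N) (tz t k u x) u = k := by
  have h := dn_mul_ik hu (slice_eq (t := t) (k := k) (x := x) hu hN)
  have hd := (dn_pos t).ne'
  apply mul_left_cancel₀ hd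
  rw [h]
  unfold dn
  ring

theorem ix_slice (hu : ‖u‖ = 1) (hN : N u = 0) : ix t (tA t k u x N) (tz t k u x) u = x := by
  have h := dn_smul_ix t (tA t k u x N) (tz t k u x) u
  have hd := (dn_pos t).ne'
  apply smul_right_injective V hd
  change dn t • ix t (tA t k u x N) (tz t k u x) u = dn t • x
  rw [h, tA_self hu hN]
  unfold tz dn
  module

theorem iN_slice (hu : ‖u‖ = 1) (hN : N u = 0) : iN t (tA t k u x N) (tz t k u x) u = N := by
  unfold iN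
  rw [ik_slice hu hN, ix_slice hu hN]
  unfold tA
  abel

end inverse

section main

/-- (T3) local surjectivity, in a neighbourhood in `t` as well -/
theorem rot_surj' [CompleteSpace V] {t₀ k₀ : ℝ} {u₀ x₀ : V} {N₀ : V →L[ℝ] V} (ht0 : 0 ≤ t₀)
    (ht1 : t₀ ≤ 1) (hk : 0 < k₀) (hu : ‖u₀‖ = 1) (hN : N₀ u₀ = 0)
    (hNn : ‖N₀‖ < ((1 - t₀) * k₀ + t₀) / 4) {U : Set (ℝ × V × (V →L[ℝ] V) × V)}
    (hU : U ∈ 𝓝 (k₀, u₀, N₀, x₀)) :
    ∀ᶠ p : ℝ × (V →L[ℝ] V) × V in 𝓝 (t₀, tA t₀ k₀ u₀ x₀ N₀, tz t₀ k₀ u₀ x₀),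
      ∃ k u N x, (k, u, N, x) ∈ U ∧ 0 < k ∧ ‖u‖ = 1 ∧ N u = 0 ∧ p.2.1 = tA p.1 k u x N ∧
        p.2.2 = tz p.1 k u x := by
  set A₀ := tA t₀ k₀ u₀ x₀ N₀ with hA₀
  set z₀ := tz t₀ k₀ u₀ x₀ with hz₀
  set c : ℝ := 1 - t₀ with hc
  have hc0 : 0 ≤ c := by rw [hc]; linarith
  set κA : ℝ := c * k₀ + t₀ with hκA
  set κz : ℝ := c + t₀ * k₀ with hκz
  have hκA0 : 0 < κA := by
    rw [hκA]
    rcases ht0.eq_or_lt with h | h
    · rw [hc, ← h]; linarith
    · have := mul_nonneg hc0 hk.le; linarith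
  have hκz0 : 0 < κz := by
    rw [hκz]
    rcases hc0.eq_or_lt with h | h
    · have h' : t₀ = 1 := by rw [hc] at h; linarith
      rw [← h, h']; linarith
    · have := mul_nonneg ht0 hk.le; linarith
  set τ₀ : ℝ := c * κA + t₀ * κz with hτ₀
  have hq : c * κA / 4 < τ₀ := by
    rw [hτ₀]
    have h1 := mul_nonneg hc0 hκA0.le
    have h2 := mul_nonneg ht0 hκz0.le
    rcases ht0.eq_or_lt with h | h
    · have hc1 : c = 1 := by rw [hc, ← h]; ring
      rw [hc1, ← h]; linarith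
    · have := mul_pos h hκz0; linarith
  have h0 : ((1 - t₀) • A₀) u₀ + t₀ • z₀ = τ₀ • u₀ := by
    rw [smul_apply]
    exact slice_eq hu hN
  have hL : ∀ d, ‖((1 - t₀) • A₀) d‖ ≤ (c * (κA + t₀ * ‖x₀‖)) * |⟪u₀, d⟫| + (c * κA / 4) * ‖d‖ := by
    intro d
    rw [smul_apply, hA₀, tA_apply, norm_smul, Real.norm_of_nonneg hc0]
    have h1 : ‖((c * k₀ + t₀) * ⟪u₀, d⟫) • u₀ + N₀ d - (t₀ * ⟪u₀, d⟫) • x₀‖ ≤
        κA * |⟪u₀, d⟫| + κA / 4 * ‖d‖ + t₀ * ‖x₀‖ * |⟪u₀, d⟫| := by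
      calc _ ≤ ‖((c * k₀ + t₀) * ⟪u₀, d⟫) • u₀‖ + ‖N₀ d‖ + ‖(t₀ * ⟪u₀, d⟫) • x₀‖ :=
            (norm_sub_le _ _).trans (add_le_add_left (norm_add_le _ _) _)
        _ ≤ _ := by
            have e1 : ‖((c * k₀ + t₀) * ⟪u₀, d⟫) • u₀‖ = κA * |⟪u₀, d⟫| := by
              rw [norm_smul, hu, mul_one, norm_mul, Real.norm_of_nonneg hκA0.le,
                Real.norm_eq_abs]
            have e2 : ‖(t₀ * ⟪u₀, d⟫) • x₀‖ = t₀ * ‖x₀‖ * |⟪u₀, d⟫| := by
              rw [norm_smul, norm_mul, Real.norm_of_nonneg ht0, Real.norm_eq_abs]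
              ring
            have e3 : ‖N₀ d‖ ≤ κA / 4 * ‖d‖ :=
              (ContinuousLinearMap.le_opNorm _ _).trans
                (mul_le_mul_of_nonneg_right hNn.le (norm_nonneg _))
            rw [e1, e2]
            linarith
    calc c * ‖((c * k₀ + t₀) * ⟪u₀, d⟫) • u₀ + N₀ d - (t₀ * ⟪u₀, d⟫) • x₀‖
        ≤ c * (κA * |⟪u₀, d⟫| + κA / 4 * ‖d‖ + t₀ * ‖x₀‖ * |⟪u₀, d⟫|) :=
          mul_le_mul_of_nonneg_left h1 hc0
      _ = _ := by ring
  -- the inverse is continuous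
  have hΘ := continuous_inverse (V := V)
  have hU' : U ∩ {q | 0 < q.1} ∈ 𝓝 (k₀, u₀, N₀, x₀) :=
    inter_mem hU ((isOpen_lt continuous_const continuous_fst).mem_nhds hk)
  have hval : ((ik t₀ A₀ z₀ u₀, u₀, iN t₀ A₀ z₀ u₀, ix t₀ A₀ z₀ u₀) :
      ℝ × V × (V →L[ℝ] V) × V) = (k₀, u₀, N₀, x₀) := by
    rw [hA₀, hz₀, ik_slice hu hN, ix_slice hu hN, iN_slice hu hN]
  have hpre := hΘ.tendsto ((t₀, A₀, z₀), u₀)
  simp only at hpre
  rw [hval] at hpre
  have hpre' := hpre hU'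
  rw [mem_map, nhds_prod_eq, mem_prod_iff] at hpre'
  obtain ⟨W, hW, B, hB, hWB⟩ := hpre'
  obtain ⟨δ, hδ, hδB⟩ := Metric.mem_nhds_iff.mp hB
  have hFP := eventually_exists_unit hu h0 (by positivity) hq (by positivity) hL hδ
  have hcont : Tendsto (fun p : ℝ × (V →L[ℝ] V) × V => (((1 - p.1) • p.2.1, p.1 • p.2.2) :
      (V →L[ℝ] V) × V)) (𝓝 (t₀, A₀, z₀)) (𝓝 ((1 - t₀) • A₀, t₀ • z₀)) := by
    have : Continuous (fun p : ℝ × (V →L[ℝ] V) × V => (((1 - p.1) • p.2.1, p.1 • p.2.2) :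
      (V →L[ℝ] V) × V)) := by fun_prop
    exact this.tendsto (t₀, A₀, z₀)
  filter_upwards [hcont.eventually hFP, hW] with p hp hpW
  obtain ⟨u, hu1, hud, τ, hτ, he⟩ := hp
  rw [smul_apply] at he
  have hmem : ((p, u) : (ℝ × (V →L[ℝ] V) × V) × V) ∈ W ×ˢ B :=
    ⟨hpW, hδB (by rwa [mem_ball_iff_norm])⟩
  have h1 := hWB hmem
  refine ⟨ik p.1 p.2.1 p.2.2 u, u, iN p.1 p.2.1 p.2.2 u, ix p.1 p.2.1 p.2.2 u, h1.1, h1.2, hu1,
    iN_apply hu1 he, (tA_inv _ _ _ _).symm, (tz_inv hu1 he).symm⟩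

/-- (T3) -/
theorem rot_surj [CompleteSpace V] {t₀ k₀ : ℝ} {u₀ x₀ : V} {N₀ : V →L[ℝ] V} (ht0 : 0 ≤ t₀)
    (ht1 : t₀ ≤ 1) (hk : 0 < k₀) (hu : ‖u₀‖ = 1) (hN : N₀ u₀ = 0)
    (hNn : ‖N₀‖ < ((1 - t₀) * k₀ + t₀) / 4) {U : Set (ℝ × V × (V →L[ℝ] V) × V)}
    (hU : U ∈ 𝓝 (k₀, u₀, N₀, x₀)) :
    ∀ᶠ p : ℝ × (V →L[ℝ] V) × V in 𝓝 (t₀, tA t₀ k₀ u₀ x₀ N₀, tz t₀ k₀ u₀ x₀),
      0 ≤ p.1 → p.1 ≤ 1 → ∃ k u N x, (k, u, N, x) ∈ U ∧ 0 < k ∧ ‖u‖ = 1 ∧ N u = 0 ∧
        p.2.1 = tA p.1 k u x N ∧ p.2.2 = tz p.1 k u x :=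
  (rot_surj' ht0 ht1 hk hu hN hNn hU).mono fun _ h _ _ => h

theorem eq_or_eq_neg_of_sq_one {a : ℝ} (h : a ^ 2 = 1) : a = 1 ∨ a = -1 := by
  have h1 : (a - 1) * (a + 1) = 0 := by linear_combination h
  rcases mul_eq_zero.mp h1 with h2 | h2
  · left; linarith
  · right; linarith

theorem inner_opNorm_le {N : V →L[ℝ] V} {q : ℝ} (hN : ‖N‖ ≤ q) (y : V) :
    ⟪N y, y⟫ ≤ q * ‖y‖ ^ 2 := by
  have e2 : ‖N y‖ ≤ q * ‖y‖ :=
    (ContinuousLinearMap.le_opNorm N y).trans (mul_le_mul_of_nonneg_right hN (norm_nonneg _))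
  calc ⟪N y, y⟫ ≤ ‖N y‖ * ‖y‖ := real_inner_le_norm (N y) y
    _ ≤ q * ‖y‖ * ‖y‖ := mul_le_mul_of_nonneg_right e2 (norm_nonneg _)
    _ = q * ‖y‖ ^ 2 := by ring

theorem neg_le_inner_opNorm {N : V →L[ℝ] V} {q : ℝ} (hN : ‖N‖ ≤ q) (y : V) {u : V}
    (hu : ‖u‖ = 1) : -(q * ‖y‖) ≤ ⟪N y, u⟫ := by
  have e2 : ‖N y‖ ≤ q * ‖y‖ :=
    (ContinuousLinearMap.le_opNorm N y).trans (mul_le_mul_of_nonneg_right hN (norm_nonneg _))
  have e1 := abs_real_inner_le_norm (N y) u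
  rw [hu, mul_one] at e1
  exact (neg_le_neg (e1.trans e2)).trans (neg_abs_le _)

theorem rot_arith {c t κ κ' τ a Y ny nu xy xu : ℝ} (hc : 0 < c) (ht : 0 ≤ t) (htκ : t ≤ κ)
    (hκ : 0 < κ) (hκ' : 0 ≤ κ') (hτ : 0 < τ) (ha2 : 7 / 8 ≤ a) (ha1 : a ≤ 1) (hY : 0 < Y)
    (hY1 : Y ≤ 1 / 2) (hYa : Y ^ 2 = 1 - a ^ 2) (b1 : ny ≤ κ / 4 * Y ^ 2)
    (b2 : -(κ / 4 * Y) ≤ nu) (b3 : xy ≤ 1 / 4 * Y) (b4 : -(1 / 4) ≤ xu)
    (hy : τ * Y ^ 2 = c * ny + c * t * (1 - a) * xy)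
    (hu : τ * a = c * κ * a + t * κ' + c * nu + c * t * (1 - a) * xu) : False := by
  have hya : 1 - a ≤ Y ^ 2 := by
    rw [hYa]
    have := mul_nonneg (sub_nonneg.mpr ha1) (by linarith : (0 : ℝ) ≤ a)
    linarith [this]
  have hcκ : 0 < c * κ := mul_pos hc hκ
  have g1 : 0 ≤ c * t * (1 - a) := mul_nonneg (mul_nonneg hc.le ht) (by linarith)
  have hct : c * t ≤ c * κ := mul_le_mul_of_nonneg_left htκ hc.le
  have ht' : τ ≤ 3 / 8 * (c * κ) := by
    have hyy : 0 < Y ^ 2 := by positivity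
    have f1 : c * ny ≤ c * (κ / 4 * Y ^ 2) := mul_le_mul_of_nonneg_left b1 hc.le
    have f2 : c * t * (1 - a) * xy ≤ c * κ * Y ^ 2 * (1 / 8) := by
      have g2 : c * t * (1 - a) ≤ c * κ * Y ^ 2 :=
        mul_le_mul hct hya (by linarith) hcκ.le
      have g3 : xy ≤ 1 / 8 := by linarith
      calc c * t * (1 - a) * xy ≤ c * t * (1 - a) * (1 / 8) :=
            mul_le_mul_of_nonneg_left g3 g1
        _ ≤ _ := mul_le_mul_of_nonneg_right g2 (by norm_num)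
    have e1 : τ * Y ^ 2 ≤ (3 / 8 * (c * κ)) * Y ^ 2 := by
      have e2 : c * (κ / 4 * Y ^ 2) + c * κ * Y ^ 2 * (1 / 8) = (3 / 8 * (c * κ)) * Y ^ 2 := by
        ring
      linarith
    exact le_of_mul_le_mul_right e1 hyy
  have f3 : c * (-(κ / 4 * Y)) ≤ c * nu := mul_le_mul_of_nonneg_left b2 hc.le
  have f4 : -(c * κ * (1 / 32)) ≤ c * t * (1 - a) * xu := by
    have g2 : c * t * (1 - a) ≤ c * κ * (1 / 8) :=
      mul_le_mul hct (by linarith) (by linarith) hcκ.le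
    have g3 := mul_le_mul_of_nonneg_left b4 g1
    linarith
  have f5 : τ * a ≤ τ * 1 := mul_le_mul_of_nonneg_left ha1 hτ.le
  have f6 : c * κ * (7 / 8) ≤ c * κ * a := mul_le_mul_of_nonneg_left ha2 hcκ.le
  have f7 : 0 ≤ t * κ' := mul_nonneg ht hκ'
  have f8 : c * κ * Y ≤ c * κ * (1 / 2) := mul_le_mul_of_nonneg_left hY1 hcκ.le
  have f9 : c * (-(κ / 4 * Y)) = -(1 / 4 * (c * κ * Y)) := by ring
  linarith

/-- (T4) injectivity, first step: the unit vectors agree -/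
theorem rot_inj_unit {t k k' : ℝ} {u u' x x' : V} {N N' : V →L[ℝ] V} (ht0 : 0 ≤ t) (ht1 : t ≤ 1)
    (hk : 0 < k) (hu : ‖u‖ = 1) (hN : N u = 0) (hNn : ‖N‖ < ((1 - t) * k + t) / 4)
    (hx : ‖x‖ < 1 / 4) (hk' : 0 < k') (hu' : ‖u'‖ = 1) (hN' : N' u' = 0)
    (hx' : ‖x'‖ < 1 / 4)
    (hA : tA t k u x N = tA t k' u' x' N') (hz : tz t k u x = tz t k' u' x') : u = u' := by
  set c : ℝ := 1 - t with hc
  have hc0 : 0 ≤ c := by rw [hc]; linarith
  have hκz : c ≤ c + t * k := by have := mul_nonneg ht0 hk.le; linarith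
  have hκz' : c ≤ c + t * k' := by have := mul_nonneg ht0 hk'.le; linarith
  have hz' : (c + t * k) • u + c • x = (c + t * k') • u' + c • x' := hz
  rcases hc0.eq_or_lt with hc00 | hcpos
  · -- t = 1
    have h1 : t = 1 := by rw [hc] at hc00; linarith
    rw [← hc00, h1] at hz'
    simp only [zero_add, one_mul, zero_smul, add_zero] at hz'
    have h2 := mul_norm_unit_sub_le hu hu' (le_min hk.le hk'.le) (min_le_left k k')
      (min_le_right k k')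
    rw [hz', sub_self, norm_zero] at h2
    have h3 : 0 < min k k' := lt_min hk hk'
    have h4 : ‖u - u'‖ ≤ 0 := by
      by_contra h5
      have := mul_pos h3 (not_le.mp h5)
      linarith
    exact sub_eq_zero.mp (norm_le_zero_iff.mp h4)
  · have h1 := mul_norm_unit_sub_le hu hu' hc0 hκz hκz'
    have h2 : (c + t * k) • u - (c + t * k') • u' = c • (x' - x) := by
      have := sub_eq_sub_iff_add_eq_add.mpr (hz'.trans (add_comm _ _))
      rw [smul_sub, ← this]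
    have h3 : ‖c • (x' - x)‖ ≤ c * (1 / 2) := by
      rw [norm_smul, Real.norm_of_nonneg hc0]
      refine mul_le_mul_of_nonneg_left ?_ hc0
      have := norm_sub_le x' x
      linarith
    rw [h2] at h1
    have h4 : ‖u - u'‖ ≤ 1 / 2 := le_of_mul_le_mul_left (h1.trans h3) hcpos
    -- decomposition
    set a : ℝ := ⟪u, u'⟫ with ha
    have hsq : ‖u - u'‖ ^ 2 = 2 - 2 * a := by
      rw [norm_sub_sq_real, hu, hu']; ring
    have ha1 : a ≤ 1 := by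
      have := real_inner_le_norm u u'
      rwa [hu, hu', mul_one] at this
    have ha2 : 7 / 8 ≤ a := by
      have h5 : ‖u - u'‖ ^ 2 ≤ (1 / 2) ^ 2 := pow_le_pow_left₀ (norm_nonneg _) h4 2
      rw [hsq] at h5
      linarith
    set y : V := u' - a • u with hy
    have huu : ⟪u, u⟫ = 1 := by rw [real_inner_self_eq_norm_sq, hu]; norm_num
    have huu' : ⟪u', u'⟫ = 1 := by rw [real_inner_self_eq_norm_sq, hu']; norm_num
    have huy : ⟪u, y⟫ = 0 := by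
      rw [hy, inner_sub_right, real_inner_smul_right, huu, ← ha]; ring
    have hyu' : ⟪u', y⟫ = ‖y‖ ^ 2 := by
      have : u' = y + a • u := by rw [hy]; abel
      rw [← real_inner_self_eq_norm_sq]
      nth_rewrite 1 [this]
      rw [inner_add_left, real_inner_smul_left, huy, mul_zero, add_zero]
    have hyn : ‖y‖ ^ 2 = 1 - a ^ 2 := by
      rw [← hyu', hy, inner_sub_right, real_inner_smul_right, huu', real_inner_comm u u', ← ha]
      ring
    have hy0 : ‖y‖ ≤ 1 / 2 := by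
      have h5 : (7 / 8 : ℝ) ^ 2 ≤ a ^ 2 := pow_le_pow_left₀ (by norm_num) ha2 2
      by_contra h6
      have h7 : (1 / 2 : ℝ) ^ 2 < ‖y‖ ^ 2 := pow_lt_pow_left₀ (not_le.mp h6) (by norm_num)
        two_ne_zero
      rw [hyn] at h7
      linarith
    have hNu' : N u' = N y := by
      have : u' = y + a • u := by rw [hy]; abel
      nth_rewrite 1 [this]
      rw [map_add, map_smul, hN, smul_zero, add_zero]
    set κ : ℝ := c * k + t with hκ
    have hκt : t ≤ κ := by have := mul_nonneg hc0 hk.le; rw [hκ]; linarith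
    have hκ0 : 0 < κ := by have := mul_pos hcpos hk; rw [hκ]; linarith
    set κ' : ℝ := c + t * k with hκ'
    have hκ'0 : 0 ≤ κ' := hc0.trans hκz
    set τ : ℝ := c * (c * k' + t) + t * (c + t * k') with hτ
    have hτ0 : 0 < τ := by
      have e1 := mul_pos hcpos (mul_pos hcpos hk')
      have e2 := mul_nonneg ht0 (mul_nonneg ht0 hk'.le)
      have e3 := mul_nonneg hc0 ht0
      have e4 : τ = c * (c * k') + 2 * (c * t) + t * (t * k') := by rw [hτ]; ring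
      rw [e4]
      linarith
    have hT : c • tA t k u x N u' + t • tz t k u x = τ • u' := by
      rw [hA, hz]; exact slice_eq hu' hN'
    have hT2 : c • tA t k u x N u' + t • tz t k u x =
        (c * κ * a + t * κ') • u + c • N y + (c * t * (1 - a)) • x := by
      rw [tA_apply, hNu']
      unfold tz
      module
    rw [hT2] at hT
    have hiy := congrArg (fun v => ⟪v, y⟫) hT
    simp only [inner_add_left, real_inner_smul_left, huy, hyu'] at hiy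
    have hiu := congrArg (fun v => ⟪v, u⟫) hT
    simp only [inner_add_left, real_inner_smul_left, huu, real_inner_comm u u', ← ha] at hiu
    -- bounds
    have b1 : ⟪N y, y⟫ ≤ κ / 4 * ‖y‖ ^ 2 := inner_opNorm_le hNn.le y
    have b2 : -(κ / 4 * ‖y‖) ≤ ⟪N y, u⟫ := neg_le_inner_opNorm hNn.le y hu
    have b3 : ⟪x, y⟫ ≤ 1 / 4 * ‖y‖ :=
      (real_inner_le_norm x y).trans (mul_le_mul_of_nonneg_right hx.le (norm_nonneg y))
    have b4 : -(1 / 4) ≤ ⟪x, u⟫ := by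
      have e1 := abs_real_inner_le_norm x u
      rw [hu, mul_one] at e1
      exact (neg_le_neg (e1.trans hx.le)).trans (neg_abs_le _)
    by_contra hne
    have hypos : 0 < ‖y‖ := by
      rw [norm_pos_iff]
      intro h0
      rw [h0, norm_zero] at hyn
      have h8 : a ^ 2 = 1 := by linarith
      have : a = 1 := by
        rcases eq_or_eq_neg_of_sq_one h8 with h9 | h9
        · exact h9
        · rw [h9] at ha2; norm_num at ha2
      rw [this] at hsq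
      have h5 : ‖u - u'‖ ^ 2 = 0 := by rw [hsq]; ring
      exact hne (sub_eq_zero.mp (norm_eq_zero.mp (pow_eq_zero_iff two_ne_zero |>.mp h5)))
    have hya : 1 - a ≤ ‖y‖ ^ 2 := by rw [hyn]; nlinarith
    exact rot_arith hcpos ht0 hκt hκ0 hκ'0 hτ0 ha2 ha1 hypos hy0 hyn b1 b2 b3 b4
      (by rw [← hiy]; ring) (by rw [← hiu]; ring)

/-- (T4) injectivity -/
theorem rot_inj {t k k' : ℝ} {u u' x x' : V} {N N' : V →L[ℝ] V} (ht0 : 0 ≤ t) (ht1 : t ≤ 1)
    (hk : 0 < k) (hu : ‖u‖ = 1) (hN : N u = 0) (hNn : ‖N‖ < ((1 - t) * k + t) / 4)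
    (hx : ‖x‖ < 1 / 4) (hk' : 0 < k') (hu' : ‖u'‖ = 1) (hN' : N' u' = 0)
    (hx' : ‖x'‖ < 1 / 4)
    (hA : tA t k u x N = tA t k' u' x' N') (hz : tz t k u x = tz t k' u' x') :
    k = k' ∧ u = u' ∧ N = N' ∧ x = x' := by
  have h := rot_inj_unit ht0 ht1 hk hu hN hNn hx hk' hu' hN' hx' hA hz
  subst h
  refine ⟨?_, rfl, ?_, ?_⟩
  · rw [← ik_slice (t := t) (k := k) (x := x) hu hN, hA, hz, ik_slice hu' hN']
  · rw [← iN_slice (t := t) (k := k) (x := x) hu hN, hA, hz, iN_slice hu' hN']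
  · rw [← ix_slice (t := t) (k := k) (x := x) hu hN, hA, hz, ix_slice hu' hN']

/-- (T2), one half -/
theorem tube_le {k k₁ : ℝ} {u u₁ : V} {N N₁ : V →L[ℝ] V} (hu : ‖u‖ = 1)
    (hN : N u = 0) (hu₁ : ‖u₁‖ = 1) (hN₁ : N₁ u₁ = 0)
    (hA : k • ten u u + N = k₁ • ten u₁ u₁ + N₁) (hne : ⟪u, u₁⟫ ^ 2 ≠ 1) : k₁ ≤ ‖N‖ := by
  set a : ℝ := ⟪u, u₁⟫ with ha
  set y : V := u₁ - a • u with hy
  have huu : ⟪u, u⟫ = 1 := by rw [real_inner_self_eq_norm_sq, hu]; norm_num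
  have huu' : ⟪u₁, u₁⟫ = 1 := by rw [real_inner_self_eq_norm_sq, hu₁]; norm_num
  have huy : ⟪u, y⟫ = 0 := by
    rw [hy, inner_sub_right, real_inner_smul_right, huu, ← ha]; ring
  have hyu' : ⟪u₁, y⟫ = ‖y‖ ^ 2 := by
    have : u₁ = y + a • u := by rw [hy]; abel
    rw [← real_inner_self_eq_norm_sq]
    nth_rewrite 1 [this]
    rw [inner_add_left, real_inner_smul_left, huy, mul_zero, add_zero]
  have hyn : ‖y‖ ^ 2 = 1 - a ^ 2 := by
    rw [← hyu', hy, inner_sub_right, real_inner_smul_right, huu', real_inner_comm u u₁, ← ha]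
    ring
  have hyy : 0 < ‖y‖ ^ 2 := by
    refine lt_of_le_of_ne (by positivity) fun h0 => hne ?_
    rw [← h0] at hyn
    linarith
  have hNu' : N u₁ = N y := by
    have : u₁ = y + a • u := by rw [hy]; abel
    nth_rewrite 1 [this]
    rw [map_add, map_smul, hN, smul_zero, add_zero]
  have h1 := congrArg (fun B : V →L[ℝ] V => ⟪B u₁, y⟫) hA
  simp only [add_apply, smul_apply, ten_apply, hN₁, hNu', inner_add_left, real_inner_smul_left,
    huy, hyu', huu', mul_zero, zero_add, add_zero, one_mul] at h1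
  have h2 : ⟪N y, y⟫ ≤ ‖N‖ * ‖y‖ ^ 2 := by
    have e1 := real_inner_le_norm (N y) y
    have e2 := mul_le_mul_of_nonneg_right (ContinuousLinearMap.le_opNorm N y) (norm_nonneg y)
    nlinarith
  rw [h1] at h2
  exact le_of_mul_le_mul_right h2 hyy

/-- (T2) -/
theorem tube_inj {k k₁ : ℝ} {u u₁ : V} {N N₁ : V →L[ℝ] V} (_hk : 0 < k) (hu : ‖u‖ = 1)
    (hN : N u = 0) (hNn : ‖N‖ < k / 4) (hk₁ : 0 < k₁) (hu₁ : ‖u₁‖ = 1) (hN₁ : N₁ u₁ = 0)
    (hNn₁ : ‖N₁‖ < k₁ / 4) (hA : k • ten u u + N = k₁ • ten u₁ u₁ + N₁) :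
    (u₁ = u ∨ u₁ = -u) ∧ k = k₁ ∧ N = N₁ := by
  have ha : ⟪u, u₁⟫ ^ 2 = 1 := by
    by_contra hne
    have h1 := tube_le hu hN hu₁ hN₁ hA hne
    have h2 := tube_le hu₁ hN₁ hu hN hA.symm (by rwa [real_inner_comm])
    linarith
  have hu' : u₁ = u ∨ u₁ = -u := by
    rcases eq_or_eq_neg_of_sq_one ha with h | h
    · left
      have : ‖u - u₁‖ ^ 2 = 0 := by rw [norm_sub_sq_real, hu, hu₁, h]; ring
      exact (sub_eq_zero.mp (norm_eq_zero.mp (pow_eq_zero_iff two_ne_zero |>.mp this))).symm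
    · right
      have : ‖u + u₁‖ ^ 2 = 0 := by rw [norm_add_sq_real, hu, hu₁, h]; ring
      exact (neg_eq_of_add_eq_zero_right
        (norm_eq_zero.mp (pow_eq_zero_iff two_ne_zero |>.mp this))).symm
  have hten : ten u₁ u₁ = ten u u := by
    rcases hu' with h | h
    · rw [h]
    · rw [h, ten_neg_neg]
  have huu : ⟪u, u⟫ = 1 := by rw [real_inner_self_eq_norm_sq, hu]; norm_num
  have hN₁u : N₁ u = 0 := by
    rcases hu' with h | h
    · rwa [h] at hN₁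
    · rw [h, map_neg, neg_eq_zero] at hN₁; exact hN₁
  rw [hten] at hA
  have h1 := congrArg (fun B : V →L[ℝ] V => ⟪B u, u⟫) hA
  simp only [add_apply, smul_apply, ten_apply, hN, hN₁u, real_inner_smul_left, huu,
    add_zero, mul_one] at h1
  refine ⟨hu', h1, ?_⟩
  rw [h1] at hA
  exact add_left_cancel hA

end main

end Vale.Agent.P263.KJ
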