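import Mathlib.Analysis.InnerProductSpace.Basic
import Mathlib.Analysis.InnerProductSpace.Continuous
import Mathlib.Analysis.InnerProductSpace.LinearMap
import Mathlib.Analysis.Normed.Module.FiniteDimension

/-!
# P263, block KJ: rank one operators and the rotating tube

`ten w u = (v ↦ ⟪u, v⟫ • w)`; the tube around the set of `(ten u u, u)`, `‖u‖ = 1`, in
`(V →L[ℝ] V) × V` at time `t` has the coordinates `tA`, `tz`.
-/

open InnerProductSpace RealInnerProductSpace

namespace Vale.Agent.P263.KJ

variable {V : Type*} [NormedAddCommGroup V] [InnerProductSpace ℝ V]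

/-- the rank one operator `v ↦ ⟪u, v⟫ • w` -/
noncomputable def ten (w u : V) : V →L[ℝ] V := (innerSL ℝ u).smulRight w

theorem ten_apply (w u v : V) : ten w u v = ⟪u, v⟫_ℝ • w := rfl

theorem ten_self {u : V} (hu : ‖u‖ = 1) (w : V) : ten w u u = w := by
  rw [ten_apply, real_inner_self_eq_norm_sq, hu, one_pow, one_smul]

theorem ten_add (w w' u : V) : ten (w + w') u = ten w u + ten w' u := by
  ext v; simp [ten_apply, smul_add]

theorem ten_sub (w w' u : V) : ten (w - w') u = ten w u - ten w' u := by
  ext v; simp [ten_apply, smul_sub]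

theorem ten_smul (a : ℝ) (w u : V) : ten (a • w) u = a • ten w u := by
  ext v; simp [ten_apply, smul_comm a]

theorem ten_neg (w u : V) : ten (-w) u = -ten w u := by
  ext v; simp [ten_apply]

theorem ten_neg_right (w u : V) : ten w (-u) = -ten w u := by
  ext v; simp [ten_apply]

theorem ten_neg_neg (w u : V) : ten (-w) (-u) = ten w u := by
  rw [ten_neg, ten_neg_right, neg_neg]

@[simp] theorem ten_zero (u : V) : ten 0 u = 0 := by
  ext v; simp [ten_apply]

theorem norm_ten (w u : V) : ‖ten w u‖ = ‖u‖ * ‖w‖ := by
  rw [ten, ContinuousLinearMap.norm_smulRight_apply, innerSL_apply_norm]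

@[fun_prop]
theorem Continuous.ten {α : Type*} [TopologicalSpace α] {f g : α → V} (hf : Continuous f)
    (hg : Continuous g) : Continuous fun a => ten (f a) (g a) := by
  unfold KJ.ten
  exact ((ContinuousLinearMap.smulRightL ℝ V V).continuous₂).comp
    (((innerSL ℝ).continuous.comp hg).prodMk hf)

/-- first coordinate of the rotating tube -/
noncomputable def tA (t k : ℝ) (u x : V) (N : V →L[ℝ] V) : V →L[ℝ] V :=
  ((1 - t) * k + t) • ten u u + N - t • ten x u

/-- second coordinate of the rotating tube -/
noncomputable def tz (t k : ℝ) (u x : V) : V := ((1 - t) + t * k) • u + (1 - t) • x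

end Vale.Agent.P263.KJ
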